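/-
Row 155 (S0222), interface module (helper64).

The law of the shuffle as a probability vector on the group `Equiv.Perm (Fin (2 * m))`:
* `pushLaw X g` : the probability that a uniformly random `ω` has `X ω = g`;
* `conv μ ν`     : convolution on a finite group;
* `tv μ`, `chi2 μ` : distance from uniform, and `tv μ ≤ (1/2) √(chi2 μ)`;
* `law m t`      : the law of `t` shuffles; `law m (t+1)`, `law m (s+t)` as convolutions;
* `tvFromUniform m t = tv (law m t)` and it is antitone in `t`.
-/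
import Crest.Agent.S0223

set_option autoImplicit false
set_option linter.unusedSectionVars false

namespace Crest.Agent.S0222R

open Crest.ProbabilityR.Shuffle Crest.Agent.S0223
open Finset

/-! ### Push-forward of the uniform law on a finite type -/

section Push

variable {Ω Ω' G : Type*} [Fintype Ω] [Fintype Ω'] [DecidableEq G]

/-- The probability that `X ω = g` for a uniformly random `ω : Ω`. -/
noncomputable def pushLaw (X : Ω → G) (g : G) : ℝ :=
  ((univ.filter (fun ω => X ω = g)).card : ℝ) / (Fintype.card Ω : ℝ)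

lemma pushLaw_nonneg (X : Ω → G) (g : G) : 0 ≤ pushLaw X g := by
  unfold pushLaw; positivity

lemma sum_pushLaw [Fintype G] [Nonempty Ω] (X : Ω → G) : ∑ g, pushLaw X g = 1 := by
  unfold pushLaw
  rw [← Finset.sum_div, ← Nat.cast_sum]
  have h := Finset.card_eq_sum_card_fiberwise (s := (univ : Finset Ω)) (t := (univ : Finset G))
    (f := X) (fun _ _ => mem_univ _)
  rw [← h, Finset.card_univ]
  have : (0 : ℝ) < (Fintype.card Ω : ℝ) := by exact_mod_cast Fintype.card_pos
  exact div_self this.ne'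

/-- Expectation form: `pushLaw X g` is the average of the indicator of `X ω = g`. -/
lemma pushLaw_eq_sum (X : Ω → G) (g : G) :
    pushLaw X g = (∑ ω, if X ω = g then (1 : ℝ) else 0) / (Fintype.card Ω : ℝ) := by
  unfold pushLaw
  rw [Finset.sum_boole]

/-- General expectation identity: `∑ g, pushLaw X g * F g = (∑ ω, F (X ω)) / |Ω|`. -/
lemma sum_pushLaw_mul [Fintype G] (X : Ω → G) (F : G → ℝ) :
    ∑ g, pushLaw X g * F g = (∑ ω, F (X ω)) / (Fintype.card Ω : ℝ) := by
  simp only [pushLaw_eq_sum, div_mul_eq_mul_div, ← Finset.sum_div, Finset.sum_mul]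
  congr 1
  rw [Finset.sum_comm]
  apply Finset.sum_congr rfl
  intro ω _
  simp

lemma pushLaw_comp_equiv (e : Ω' ≃ Ω) (X : Ω → G) (g : G) :
    pushLaw (fun ω' => X (e ω')) g = pushLaw X g := by
  unfold pushLaw
  rw [Fintype.card_congr e]
  congr 2
  apply Finset.card_bij (fun ω' _ => e ω')
  · intro a ha; simpa using ha
  · intro a _ b _ h; exact e.injective h
  · intro b hb
    exact ⟨e.symm b, by simpa using hb, by simp⟩

end Push

/-! ### Convolution, total variation and chi-square on a finite group -/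

section Group

variable {G : Type*} [Group G] [Fintype G] [DecidableEq G]

/-- Convolution: the law of `h * k` for independent `h ∼ μ`, `k ∼ ν`. -/
noncomputable def conv (μ ν : G → ℝ) (g : G) : ℝ := ∑ h, μ h * ν (h⁻¹ * g)

/-- Half the `ℓ¹` distance from the uniform vector. -/
noncomputable def tv (μ : G → ℝ) : ℝ := (1 / 2) * ∑ g, |μ g - 1 / (Fintype.card G : ℝ)|

/-- The chi-square distance from the uniform vector. -/
noncomputable def chi2 (μ : G → ℝ) : ℝ :=
  (Fintype.card G : ℝ) * ∑ g, (μ g - 1 / (Fintype.card G : ℝ)) ^ 2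

lemma tv_nonneg (μ : G → ℝ) : 0 ≤ tv μ := by
  unfold tv
  have : 0 ≤ ∑ g, |μ g - 1 / (Fintype.card G : ℝ)| := Finset.sum_nonneg fun _ _ => abs_nonneg _
  positivity

lemma chi2_nonneg (μ : G → ℝ) : 0 ≤ chi2 μ := by
  unfold chi2
  have : 0 ≤ ∑ g, (μ g - 1 / (Fintype.card G : ℝ)) ^ 2 := Finset.sum_nonneg fun _ _ => sq_nonneg _
  positivity

lemma card_pos_real : (0 : ℝ) < (Fintype.card G : ℝ) := by
  exact_mod_cast Fintype.card_pos

/-- `chi2 μ = |G| ∑ μ² - 1` for a vector of total mass one. -/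
lemma chi2_eq (μ : G → ℝ) (hμ : ∑ g, μ g = 1) :
    chi2 μ = (Fintype.card G : ℝ) * ∑ g, μ g ^ 2 - 1 := by
  unfold chi2
  have hN := card_pos_real (G := G)
  have h1 : ∑ g, (μ g - 1 / (Fintype.card G : ℝ)) ^ 2
      = ∑ g, μ g ^ 2 - 2 / (Fintype.card G : ℝ) * ∑ g, μ g
        + (Fintype.card G : ℝ) * (1 / (Fintype.card G : ℝ)) ^ 2 := by
    rw [Finset.mul_sum, ← Finset.sum_sub_distrib]
    have : (Fintype.card G : ℝ) * (1 / (Fintype.card G : ℝ)) ^ 2
        = ∑ _g : G, (1 / (Fintype.card G : ℝ)) ^ 2 := by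
      rw [Finset.sum_const, Finset.card_univ, nsmul_eq_mul]
    rw [this, ← Finset.sum_add_distrib]
    apply Finset.sum_congr rfl
    intro g _
    ring
  rw [h1, hμ]
  field_simp
  ring

/-- Cauchy–Schwarz: total variation is at most half the root of chi-square. -/
lemma tv_le_sqrt_chi2 (μ : G → ℝ) : tv μ ≤ (1 / 2) * Real.sqrt (chi2 μ) := by
  unfold tv chi2
  have hN := card_pos_real (G := G)
  apply mul_le_mul_of_nonneg_left _ (by norm_num)
  apply Real.le_sqrt_of_sq_le
  have h2 := sq_sum_le_card_mul_sum_sq (s := (univ : Finset G))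
    (f := fun g => |μ g - 1 / (Fintype.card G : ℝ)|)
  simp only [sq_abs, Finset.card_univ] at h2
  exact h2

/-- Left translation does not change the distance from uniform. -/
lemma sum_abs_translate (ν : G → ℝ) (u : ℝ) (h : G) :
    ∑ g, |ν (h⁻¹ * g) - u| = ∑ g, |ν g - u| :=
  Fintype.sum_equiv (Equiv.mulLeft h⁻¹) _ _ fun _ => rfl

lemma sum_abs_translate_right (μ : G → ℝ) (u : ℝ) (k : G) :
    ∑ g, |μ (g * k⁻¹) - u| = ∑ g, |μ g - u| :=
  Fintype.sum_equiv (Equiv.mulRight k⁻¹) _ _ fun _ => rfl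

/-- Convolving on the left with a probability vector does not increase the distance from
uniform. -/
lemma tv_conv_le_right (μ ν : G → ℝ) (hμ0 : ∀ g, 0 ≤ μ g) (hμ1 : ∑ g, μ g = 1) :
    tv (conv μ ν) ≤ tv ν := by
  unfold tv
  apply mul_le_mul_of_nonneg_left _ (by norm_num)
  set u : ℝ := 1 / (Fintype.card G : ℝ) with hu
  have h1 : ∀ g, conv μ ν g - u = ∑ h, μ h * (ν (h⁻¹ * g) - u) := by
    intro g
    unfold conv
    simp only [mul_sub, Finset.sum_sub_distrib, ← Finset.sum_mul, hμ1, one_mul]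
  calc ∑ g, |conv μ ν g - u| = ∑ g, |∑ h, μ h * (ν (h⁻¹ * g) - u)| := by
        simp only [h1]
    _ ≤ ∑ g, ∑ h, μ h * |ν (h⁻¹ * g) - u| := by
        apply Finset.sum_le_sum
        intro g _
        refine (Finset.abs_sum_le_sum_abs _ _).trans (le_of_eq ?_)
        apply Finset.sum_congr rfl
        intro h _
        rw [abs_mul, abs_of_nonneg (hμ0 h)]
    _ = ∑ h, μ h * ∑ g, |ν (h⁻¹ * g) - u| := by
        rw [Finset.sum_comm]
        simp only [Finset.mul_sum]
    _ = ∑ h, μ h * ∑ g, |ν g - u| := by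
        simp only [sum_abs_translate]
    _ = ∑ g, |ν g - u| := by
        rw [← Finset.sum_mul, hμ1, one_mul]

/-- `conv` written with the sum over the right factor. -/
lemma conv_eq_sum_right (μ ν : G → ℝ) (g : G) : conv μ ν g = ∑ k, μ (g * k⁻¹) * ν k := by
  unfold conv
  refine Fintype.sum_equiv ((Equiv.inv G).trans (Equiv.mulRight g)) _ _ ?_
  intro h
  simp

/-- Convolving on the right with a probability vector does not increase the distance from
uniform. -/
lemma tv_conv_le_left (μ ν : G → ℝ) (hν0 : ∀ g, 0 ≤ ν g) (hν1 : ∑ g, ν g = 1) :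
    tv (conv μ ν) ≤ tv μ := by
  unfold tv
  apply mul_le_mul_of_nonneg_left _ (by norm_num)
  set u : ℝ := 1 / (Fintype.card G : ℝ) with hu
  have h1 : ∀ g, conv μ ν g - u = ∑ k, (μ (g * k⁻¹) - u) * ν k := by
    intro g
    rw [conv_eq_sum_right]
    simp only [sub_mul, Finset.sum_sub_distrib, ← Finset.mul_sum, hν1, mul_one]
  calc ∑ g, |conv μ ν g - u| = ∑ g, |∑ k, (μ (g * k⁻¹) - u) * ν k| := by
        simp only [h1]
    _ ≤ ∑ g, ∑ k, |μ (g * k⁻¹) - u| * ν k := by
        apply Finset.sum_le_sum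
        intro g _
        refine (Finset.abs_sum_le_sum_abs _ _).trans (le_of_eq ?_)
        apply Finset.sum_congr rfl
        intro k _
        rw [abs_mul, abs_of_nonneg (hν0 k)]
    _ = ∑ k, (∑ g, |μ (g * k⁻¹) - u|) * ν k := by
        rw [Finset.sum_comm]
        simp only [Finset.sum_mul]
    _ = ∑ k, (∑ g, |μ g - u|) * ν k := by
        simp only [sum_abs_translate_right]
    _ = ∑ g, |μ g - u| := by
        rw [← Finset.mul_sum, hν1, mul_one]

lemma conv_nonneg (μ ν : G → ℝ) (hμ0 : ∀ g, 0 ≤ μ g) (hν0 : ∀ g, 0 ≤ ν g) (g : G) :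
    0 ≤ conv μ ν g :=
  Finset.sum_nonneg fun h _ => mul_nonneg (hμ0 h) (hν0 _)

lemma sum_conv (μ ν : G → ℝ) : ∑ g, conv μ ν g = (∑ g, μ g) * ∑ g, ν g := by
  unfold conv
  rw [Finset.sum_comm, Finset.sum_mul]
  apply Finset.sum_congr rfl
  intro h _
  rw [← Finset.mul_sum]
  congr 1
  exact Fintype.sum_equiv (Equiv.mulLeft h⁻¹) _ _ fun _ => rfl

end Group

/-! ### The push-forward of a product is a convolution -/

section PushMul

variable {Ω₁ Ω₂ G : Type*} [Fintype Ω₁] [Fintype Ω₂] [Group G] [Fintype G] [DecidableEq G]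

lemma pushLaw_mul (X₂ : Ω₂ → G) (X₁ : Ω₁ → G) (g : G) :
    pushLaw (fun p : Ω₂ × Ω₁ => X₂ p.1 * X₁ p.2) g = conv (pushLaw X₂) (pushLaw X₁) g := by
  unfold conv
  simp only [pushLaw_eq_sum]
  rw [Fintype.card_prod, Fintype.sum_prod_type]
  have key : ∀ ω₂ : Ω₂, ∀ ω₁ : Ω₁,
      (if X₂ ω₂ * X₁ ω₁ = g then (1 : ℝ) else 0)
        = ∑ h, (if X₂ ω₂ = h then (1 : ℝ) else 0) * (if X₁ ω₁ = h⁻¹ * g then (1 : ℝ) else 0) := by
    intro ω₂ ω₁
    rw [Finset.sum_eq_single (X₂ ω₂)]
    · simp only [if_true, one_mul]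
      congr 1
      rw [eq_inv_mul_iff_mul_eq]
    · intro h _ hne
      rw [if_neg (Ne.symm hne), zero_mul]
    · intro h; exact absurd (mem_univ _) h
  simp only [key]
  have : ∀ h : G,
      (∑ ω, if X₂ ω = h then (1 : ℝ) else 0) / (Fintype.card Ω₂ : ℝ) *
        ((∑ ω, if X₁ ω = h⁻¹ * g then (1 : ℝ) else 0) / (Fintype.card Ω₁ : ℝ))
      = (∑ ω₂, ∑ ω₁, (if X₂ ω₂ = h then (1 : ℝ) else 0) *
          (if X₁ ω₁ = h⁻¹ * g then (1 : ℝ) else 0)) / ((Fintype.card Ω₂ : ℝ) * (Fintype.card Ω₁ : ℝ)) := by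
    intro h
    rw [div_mul_div_comm, Finset.sum_mul_sum]
  simp only [this]
  rw [← Finset.sum_div, Nat.cast_mul]
  congr 1
  calc ∑ ω₂ : Ω₂, ∑ ω₁ : Ω₁, ∑ h : G, (if X₂ ω₂ = h then (1 : ℝ) else 0) *
          (if X₁ ω₁ = h⁻¹ * g then (1 : ℝ) else 0)
      = ∑ ω₂ : Ω₂, ∑ h : G, ∑ ω₁ : Ω₁, (if X₂ ω₂ = h then (1 : ℝ) else 0) *
          (if X₁ ω₁ = h⁻¹ * g then (1 : ℝ) else 0) :=
        Finset.sum_congr rfl (fun ω₂ _ => Finset.sum_comm)
    _ = ∑ h : G, ∑ ω₂ : Ω₂, ∑ ω₁ : Ω₁, (if X₂ ω₂ = h then (1 : ℝ) else 0) *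
          (if X₁ ω₁ = h⁻¹ * g then (1 : ℝ) else 0) := Finset.sum_comm

end PushMul

/-! ### The shuffle -/

section Shuffle

variable (m : ℕ)

/-- One shuffle with bits `c`, as a permutation of the positions. -/
noncomputable def stepPerm (c : Fin m → Bool) : Equiv.Perm (Fin (2 * m)) :=
  Equiv.ofBijective (stepPos m c)
    ((Finite.injective_iff_bijective).mp (stepPos_injective m c))

lemma coe_stepPerm (c : Fin m → Bool) : ⇑(stepPerm m c) = stepPos m c := rfl

/-- `t + 1` shuffles: the last shuffle composed with the first `t`. -/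
lemma runPerm_succ (t : ℕ) (cs : Fin (t + 1) → Fin m → Bool) :
    runPerm m (t + 1) cs = stepPerm m (cs (Fin.last t)) * runPerm m t (fun i => cs i.castSucc) := by
  apply Equiv.ext
  intro x
  rfl

lemma runPerm_zero (cs : Fin 0 → Fin m → Bool) : runPerm m 0 cs = 1 := by
  apply Equiv.ext
  intro x
  rfl

/-- `s + t` shuffles: the last `t` composed with the first `s`. -/
lemma runPerm_add (s : ℕ) : ∀ (t : ℕ) (cs : Fin (s + t) → Fin m → Bool),
    runPerm m (s + t) cs
      = runPerm m t (fun i => cs (Fin.natAdd s i)) * runPerm m s (fun i => cs (Fin.castAdd t i))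
  | 0, cs => by
      rw [runPerm_zero, one_mul]
      rfl
  | t + 1, cs => by
      have h1 : runPerm m (s + (t + 1)) cs
          = stepPerm m (cs (Fin.last (s + t))) * runPerm m (s + t) (fun i => cs i.castSucc) :=
        runPerm_succ m (s + t) cs
      rw [h1, runPerm_add s t (fun i => cs i.castSucc), runPerm_succ m t, mul_assoc]
      rfl

/-- The law of the permutation produced by `t` shuffles. -/
noncomputable def law (t : ℕ) : Equiv.Perm (Fin (2 * m)) → ℝ :=
  pushLaw (runPerm m t)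

lemma law_nonneg (t : ℕ) (g : Equiv.Perm (Fin (2 * m))) : 0 ≤ law m t g :=
  pushLaw_nonneg _ _

lemma sum_law (t : ℕ) : ∑ g, law m t g = 1 :=
  sum_pushLaw _

lemma card_tables (t : ℕ) : Fintype.card (Fin t → Fin m → Bool) = 2 ^ (m * t) := by
  simp [Fintype.card_pi, Finset.prod_const, ← pow_mul]

/-- The law as a ratio of counts. -/
lemma law_eq (t : ℕ) (g : Equiv.Perm (Fin (2 * m))) :
    law m t g = ((univ.filter (fun cs : Fin t → Fin m → Bool => runPerm m t cs = g)).card : ℝ)
      / (2 : ℝ) ^ (m * t) := by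
  unfold law pushLaw
  rw [card_tables]
  push_cast
  rfl

/-- The frozen `uniformProb` of the event "the position map is `g`" is `law m t g`. -/
lemma uniformProb_eq_law (t : ℕ) (g : Equiv.Perm (Fin (2 * m))) :
    Crest.FinProb.uniformProb {cs : Fin t → Fin m → Bool | iterPos m t cs = ⇑g} = law m t g := by
  classical
  rw [uniformProb_eq]
  unfold law pushLaw
  congr 2
  congr 1
  apply Finset.filter_congr
  intro cs _
  simp only [Set.mem_ofPred_eq]
  rw [← coe_runPerm]
  exact DFunLike.coe_fn_eq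

/-- The frozen distance is the `tv` of the law. -/
lemma tvFromUniform_eq (t : ℕ) : tvFromUniform m t = tv (law m t) := by
  unfold tvFromUniform tv
  simp only [uniformProb_eq_law, Fintype.card_perm, Fintype.card_fin]

/-- The law of `s + t` shuffles is the convolution of the law of the last `t` with the law of
the first `s`. -/
lemma law_add (s t : ℕ) : law m (s + t) = conv (law m t) (law m s) := by
  funext g
  unfold law
  rw [← pushLaw_mul]
  have h := pushLaw_comp_equiv
    (((Equiv.prodComm _ _).trans (Fin.appendEquiv s t)) :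
      (Fin t → Fin m → Bool) × (Fin s → Fin m → Bool) ≃ (Fin (s + t) → Fin m → Bool))
    (runPerm m (s + t)) g
  rw [← h]
  congr 1
  funext p
  rw [runPerm_add]
  congr 2
  · funext i
    simp [Fin.appendEquiv]
  · funext i
    simp [Fin.appendEquiv]

/-- More shuffles never increase the distance from uniform. -/
lemma tvFromUniform_add_le (s t : ℕ) : tvFromUniform m (s + t) ≤ tvFromUniform m s := by
  rw [tvFromUniform_eq, tvFromUniform_eq, law_add]
  exact tv_conv_le_right _ _ (law_nonneg m t) (sum_law m t)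

lemma tvFromUniform_add_le' (s t : ℕ) : tvFromUniform m (s + t) ≤ tvFromUniform m t := by
  rw [tvFromUniform_eq, tvFromUniform_eq, law_add]
  exact tv_conv_le_left _ _ (law_nonneg m s) (sum_law m s)

lemma tvFromUniform_antitone : Antitone (tvFromUniform m) := by
  intro s t hst
  obtain ⟨k, rfl⟩ := Nat.exists_eq_add_of_le hst
  exact tvFromUniform_add_le m s k

lemma tvFromUniform_nonneg (t : ℕ) : 0 ≤ tvFromUniform m t := by
  rw [tvFromUniform_eq]; exact tv_nonneg _

/-- The chi-square distance from uniform after `t` shuffles. -/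
noncomputable def chi2Shuffle (t : ℕ) : ℝ := chi2 (law m t)

lemma tvFromUniform_le_sqrt_chi2 (t : ℕ) :
    tvFromUniform m t ≤ (1 / 2) * Real.sqrt (chi2Shuffle m t) := by
  rw [tvFromUniform_eq]; exact tv_le_sqrt_chi2 _

/-- Chi-square through the collision probability of two independent runs. -/
lemma chi2Shuffle_eq (t : ℕ) :
    chi2Shuffle m t = ((2 * m).factorial : ℝ) * ∑ g, law m t g ^ 2 - 1 := by
  unfold chi2Shuffle
  rw [chi2_eq _ (sum_law m t), Fintype.card_perm, Fintype.card_fin]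

/-- The collision probability as a count of pairs of bit tables with the same outcome. -/
lemma sum_law_sq (t : ℕ) :
    ∑ g, law m t g ^ 2
      = ((univ.filter (fun p : (Fin t → Fin m → Bool) × (Fin t → Fin m → Bool) =>
          runPerm m t p.1 = runPerm m t p.2)).card : ℝ) / (4 : ℝ) ^ (m * t) := by
  have h1 : ∑ g, law m t g ^ 2 = ∑ g, law m t g * law m t g := by
    apply Finset.sum_congr rfl; intro g _; ring
  rw [h1]
  unfold law
  rw [sum_pushLaw_mul]
  simp only [pushLaw]
  rw [← Finset.sum_div, div_div, card_tables]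
  have h4 : ((2 ^ (m * t) : ℕ) : ℝ) * ((2 ^ (m * t) : ℕ) : ℝ) = (4 : ℝ) ^ (m * t) := by
    push_cast
    rw [← mul_pow]; norm_num
  rw [h4]
  congr 1
  rw [← Nat.cast_sum]
  congr 1
  rw [Finset.card_filter, Fintype.sum_prod_type]
  apply Finset.sum_congr rfl
  intro cs _
  rw [Finset.card_filter]
  apply Finset.sum_congr rfl
  intro cs' _
  by_cases h : runPerm m t cs = runPerm m t cs'
  · rw [if_pos h, if_pos h.symm]
  · rw [if_neg h, if_neg (Ne.symm h)]

end Shuffle

/-! ### Final glue for S0222 -/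

/-- If for some fixed number `j ≤ 1600` of sweeps the distance after `j * (d + 1)` shuffles of
`2 * 2 ^ d` cards is at most `ε d` with `ε → 0`, then the frozen S0222 statement holds. -/
theorem tendsto_of_sweeps (j : ℕ) (hj : j ≤ 1600) (ε : ℕ → ℝ)
    (hε : Filter.Tendsto ε Filter.atTop (nhds 0))
    (h : ∀ᶠ d in Filter.atTop, tvFromUniform (2 ^ d) (j * (d + 1)) ≤ ε d) :
    Filter.Tendsto (fun d : ℕ => tvFromUniform (2 ^ d) (1600 * (d + 1)))
      Filter.atTop (nhds 0) := by
  refine tendsto_of_tendsto_of_tendsto_of_le_of_le' tendsto_const_nhds hε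
    (Filter.Eventually.of_forall fun d => tvFromUniform_nonneg _ _) ?_
  filter_upwards [h] with d hd
  exact (tvFromUniform_antitone (2 ^ d) (Nat.mul_le_mul_right (d + 1) hj)).trans hd

/-- Chi-square version of the glue. -/
theorem tendsto_of_chi2 (j : ℕ) (hj : j ≤ 1600) (ε : ℕ → ℝ)
    (hε : Filter.Tendsto ε Filter.atTop (nhds 0))
    (h : ∀ᶠ d in Filter.atTop, chi2Shuffle (2 ^ d) (j * (d + 1)) ≤ ε d) :
    Filter.Tendsto (fun d : ℕ => tvFromUniform (2 ^ d) (1600 * (d + 1)))
      Filter.atTop (nhds 0) := by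
  have hsqrt : Filter.Tendsto (fun d => (1 / 2) * Real.sqrt (ε d)) Filter.atTop (nhds 0) := by
    have h0 : Filter.Tendsto (fun d => Real.sqrt (ε d)) Filter.atTop (nhds (Real.sqrt 0)) :=
      (Real.continuous_sqrt.tendsto 0).comp hε
    rw [Real.sqrt_zero] at h0
    simpa using h0.const_mul (1 / 2 : ℝ)
  refine tendsto_of_sweeps j hj _ hsqrt ?_
  filter_upwards [h] with d hd
  refine (tvFromUniform_le_sqrt_chi2 _ _).trans ?_
  exact mul_le_mul_of_nonneg_left (Real.sqrt_le_sqrt hd) (by norm_num)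

end Crest.Agent.S0222R
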