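/-
Row 155 (S0222, Thorp shuffle), module (G2)/(f): quasirandomness doubling for the symmetric group
without representation theory (helper25).  Namespace `Crest.Agent.S0222R.BNP`, on top of helper64's
`Law.lean` (`conv`, `chi2`, `law`, `chi2Shuffle`).

* `exists_joint_eigen`, `card_le_finrank_of_pattern`, `dichotomy` : abstract part (a group with a
  family of commuting involutions `t i` and "pair exchange" elements);
* `min_dim` : a nonzero real representation of `Perm (Fin N)`, `N ≥ 5`, without fixed vectors and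
  without sign vectors has dimension at least `N / 4`;
* `op_le_hs` : `m ‖M g‖² ≤ ‖M‖_HS² ‖g‖²` when all positive eigenspaces of `Mᵀ M` have dim `≥ m`;
* `conv_sq_le`, `perm_dim`, `bnp` : `(N/4) ‖f * g‖² ≤ N! ‖f‖² ‖g‖²` for `f` of mean zero and
  orthogonal to the sign character;
* `chi2_conv_le` : `(N/4) χ²(μ * ν) ≤ χ²(μ) χ²(ν)`;
* `sum_sign_law` : the law of `t ≥ 1` shuffles is orthogonal to the sign character;
* `chi2Shuffle_add_le`, `chi2Shuffle_pow_le` : doubling for the shuffle;
* `tendsto_of_chi2_pow`, `tendsto_of_chi2_rpow` : glue to the frozen S0222 statement from a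
  polynomially lossy chi-square bound after `j ≤ 1600 / 2^k` sweeps.
-/
import Crest.Agent.S0222.Law

set_option autoImplicit false
set_option linter.unusedSectionVars false
set_option linter.unusedSimpArgs false
open Finset

namespace Crest.Agent.S0222R.BNP

/-! ### Joint eigenvectors of commuting involutions -/

section Joint

variable {V : Type*} [AddCommGroup V] [Module ℝ V] {ι : Type*} [DecidableEq ι]

lemma end_mul_apply' (S T : Module.End ℝ V) (v : V) : (S * T) v = S (T v) := rfl

/-- For commuting involutions `T i` and `u ≠ 0` there is a nonzero joint eigenvector `u'` for the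
`T i`, `i ∈ A`, with signs `s i = ±1`; every eigen-relation `S u = c • u` with `S` in the commutant
of the family is inherited by `u'`. -/
lemma exists_joint_eigen (T : ι → Module.End ℝ V) (hinv : ∀ i, T i * T i = 1)
    (hcomm : ∀ i j, T i * T j = T j * T i) (A : Finset ι) (u : V) (hu : u ≠ 0) :
    ∃ (u' : V) (s : ι → ℝ), u' ≠ 0 ∧ (∀ i ∈ A, T i u' = s i • u') ∧ (∀ i, s i = 1 ∨ s i = -1) ∧
      ∀ (S : Module.End ℝ V) (c : ℝ), (∀ i, S * T i = T i * S) → S u = c • u → S u' = c • u' := by
  induction A using Finset.induction_on with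
  | empty => exact ⟨u, fun _ => 1, hu, by simp, fun _ => Or.inl rfl, fun S c _ h => h⟩
  | insert a A ha ih =>
    obtain ⟨u₁, s, hu₁, hs, hpm, hS⟩ := ih
    have hTT : ∀ i (v : V), T i (T i v) = v := by
      intro i v
      have := congrArg (fun f : Module.End ℝ V => f v) (hinv i)
      simpa [end_mul_apply'] using this
    have hTc : ∀ i j (v : V), T i (T j v) = T j (T i v) := by
      intro i j v
      have := congrArg (fun f : Module.End ℝ V => f v) (hcomm i j)
      simpa [end_mul_apply'] using this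
    by_cases h0 : u₁ + T a u₁ = 0
    · refine ⟨u₁, Function.update s a (-1), hu₁, ?_, ?_, hS⟩
      · intro i hi
        rcases Finset.mem_insert.mp hi with rfl | hi
        · rw [Function.update_self]
          have : T i u₁ = -u₁ := by rw [eq_neg_iff_add_eq_zero, add_comm]; exact h0
          rw [this]; simp
        · have hne : i ≠ a := fun h => ha (h ▸ hi)
          rw [Function.update_of_ne hne]; exact hs i hi
      · intro i
        by_cases hia : i = a
        · subst hia; rw [Function.update_self]; right; rfl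
        · rw [Function.update_of_ne hia]; exact hpm i
    · refine ⟨u₁ + T a u₁, Function.update s a 1, h0, ?_, ?_, ?_⟩
      · intro i hi
        rcases Finset.mem_insert.mp hi with rfl | hi
        · rw [Function.update_self, one_smul, map_add, hTT, add_comm]
        · have hne : i ≠ a := fun h => ha (h ▸ hi)
          rw [Function.update_of_ne hne, map_add, hTc i a, hs i hi, map_smul, smul_add]
      · intro i
        by_cases hia : i = a
        · subst hia; rw [Function.update_self]; left; rfl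
        · rw [Function.update_of_ne hia]; exact hpm i
      · intro S c hSc hSu
        have h1 := hS S c hSc hSu
        have h2 : S (T a u₁) = T a (S u₁) := by
          have := congrArg (fun f : Module.End ℝ V => f u₁) (hSc a)
          simpa [end_mul_apply'] using this
        rw [map_add, h2, h1, map_smul, smul_add]

end Joint

/-! ### The abstract dimension bound -/

section Abstract

variable {G : Type*} [Group G] {V : Type*} [AddCommGroup V] [Module ℝ V] [FiniteDimensional ℝ V]
  {ι : Type*} [Fintype ι] [DecidableEq ι]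

lemma rho_mul_apply (ρ : G →* Module.End ℝ V) (x y : G) (v : V) : ρ (x * y) v = ρ x (ρ y v) := by
  rw [map_mul]; rfl

/-- Conjugating a joint eigenvector with a sign `-ε` at `p` and `ε` on `A` by the exchanges
`p ↔ a`, `a ∈ A`, gives `|A|` independent vectors. -/
lemma card_le_finrank_of_pattern (ρ : G →* Module.End ℝ V) (t : ι → G) (exch : ι → ι → G)
    (hex1 : ∀ p a, p ≠ a → exch p a * t p = t a * exch p a)
    (hex2 : ∀ p a b, b ≠ p → b ≠ a → exch p a * t b = t b * exch p a)
    (u : V) (hu : u ≠ 0) (s : ι → ℝ) (hs : ∀ i, ρ (t i) u = s i • u)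
    (ε : ℝ) (hε : ε ≠ 0) (p : ι) (hp : s p = -ε) (A : Finset ι) (hA : ∀ a ∈ A, s a = ε) :
    A.card ≤ Module.finrank ℝ V := by
  have hεε : ε ≠ -ε := by
    intro h
    apply hε
    linarith
  have hpA : ∀ a ∈ A, a ≠ p := by
    intro a ha h
    rw [h] at ha
    exact hεε ((hA p ha).symm.trans hp)
  have hw0 : ∀ a : ι, ρ (exch p a) u ≠ 0 := by
    intro a h
    apply hu
    have := congrArg (ρ (exch p a)⁻¹) h
    rw [← rho_mul_apply, inv_mul_cancel, map_one, map_zero] at this
    simpa using this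
  have key : ∀ a ∈ A, ∀ b ∈ A,
      ρ (t b) (ρ (exch p a) u) = (if a = b then -ε else ε) • ρ (exch p a) u := by
    intro a ha b hb
    rw [← rho_mul_apply]
    by_cases hab : a = b
    · subst hab
      rw [if_pos rfl, ← hex1 p a (hpA a ha).symm, rho_mul_apply, hs, hp, map_smul]
    · rw [if_neg hab, ← hex2 p a b (hpA b hb) (fun h => hab h.symm), rho_mul_apply, hs, hA b hb,
        map_smul]
  have hli : LinearIndependent ℝ (fun a : A => ρ (exch p a) u) := by
    rw [linearIndependent_iff']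
    intro F g hg b hb
    have h1 := congrArg (fun v => ρ (t b) v - ε • v) hg
    simp only [map_sum, map_smul, smul_zero, map_zero, sub_zero] at h1
    rw [Finset.smul_sum, ← Finset.sum_sub_distrib] at h1
    have h2 : ∀ a ∈ F, g a • ρ (t b) (ρ (exch p a) u) - ε • g a • ρ (exch p a) u
        = if a = b then (g b * (-2 * ε)) • ρ (exch p b) u else 0 := by
      intro a _
      rw [key a a.2 b b.2]
      by_cases hab : a = b
      · have hab' : (a : ι) = b := congrArg Subtype.val hab
        rw [if_pos hab, if_pos hab', hab]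
        module
      · have hab' : ¬ (a : ι) = b := fun h => hab (Subtype.ext h)
        rw [if_neg hab, if_neg hab']
        module
    rw [Finset.sum_congr rfl h2, Finset.sum_ite_eq' F b, if_pos hb] at h1
    rcases smul_eq_zero.mp h1 with h3 | h3
    · have : (-2 * ε) ≠ 0 := by
        intro h; apply hε; linarith
      exact (mul_eq_zero.mp h3).resolve_right this
    · exact absurd h3 (hw0 b)
  have := hli.fintype_card_le_finrank
  simpa using this

/-- **Dichotomy.** For commuting involutions `t i` of a group with pair exchanges, in any real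
representation either the dimension is at least half the number of involutions, or all `t i` act by
the same operator. -/
theorem dichotomy (ρ : G →* Module.End ℝ V) (t : ι → G) (exch : ι → ι → G)
    (ht2 : ∀ i, t i * t i = 1) (htc : ∀ i j, t i * t j = t j * t i)
    (hex1 : ∀ p a, p ≠ a → exch p a * t p = t a * exch p a)
    (hex2 : ∀ p a b, b ≠ p → b ≠ a → exch p a * t b = t b * exch p a) :
    Fintype.card ι ≤ 2 * Module.finrank ℝ V ∨ ∀ i j, ρ (t i) = ρ (t j) := by
  have hTT : ∀ i (v : V), ρ (t i) (ρ (t i) v) = v := by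
    intro i v
    rw [← rho_mul_apply, ht2, map_one]; rfl
  have hTc : ∀ i j (v : V), ρ (t i) (ρ (t j) v) = ρ (t j) (ρ (t i) v) := by
    intro i j v
    rw [← rho_mul_apply, htc, rho_mul_apply]
  by_cases hmix : ∃ (u : V) (s : ι → ℝ), u ≠ 0 ∧ (∀ i, ρ (t i) u = s i • u) ∧
      (∀ i, s i = 1 ∨ s i = -1) ∧ ∃ p q, s p = -1 ∧ s q = 1
  · left
    obtain ⟨u, s, hu, hs, hpm, p, q, hp, hq⟩ := hmix
    have h1 := card_le_finrank_of_pattern ρ t exch hex1 hex2 u hu s hs 1 one_ne_zero p hp
      (univ.filter fun i => s i = 1) (by simp)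
    have h2 := card_le_finrank_of_pattern ρ t exch hex1 hex2 u hu s hs (-1) (by norm_num) q
      (by rw [hq]; norm_num) (univ.filter fun i => s i = -1) (by simp)
    have h3 : (univ.filter fun i => s i = 1).card + (univ.filter fun i => s i = -1).card
        = Fintype.card ι := by
      have e : (univ.filter fun i => s i = -1) = univ.filter fun i => ¬ s i = 1 := by
        ext i
        simp only [mem_filter, mem_univ, true_and]
        constructor
        · intro h h'; rw [h] at h'; norm_num at h'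
        · intro h; exact (hpm i).resolve_left h
      rw [e, Finset.card_filter_add_card_filter_not, Finset.card_univ]
    omega
  · right
    have key : ∀ i j, i ≠ j → ∀ v : V,
        (v - ρ (t j) v) + ρ (t i) (v - ρ (t j) v) = 0 := by
      intro i j hij v
      by_contra hne
      set w := (v - ρ (t j) v) + ρ (t i) (v - ρ (t j) v) with hw
      have hTi : ρ (t i) w = (1 : ℝ) • w := by
        rw [hw, map_add, hTT, one_smul, add_comm]
      have hTj : ρ (t j) w = (-1 : ℝ) • w := by
        rw [hw, map_add, hTc j i, map_sub, hTT]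
        simp only [map_sub, neg_smul, one_smul]
        abel
      obtain ⟨u', s, hu', hs, hpm, hS⟩ := exists_joint_eigen (fun l => ρ (t l))
        (fun l => by rw [← map_mul, ht2, map_one]) (fun l l' => by rw [← map_mul, htc, map_mul])
        univ w hne
      apply hmix
      refine ⟨u', s, hu', fun l => hs l (mem_univ l), hpm, j, i, ?_, ?_⟩
      · have h1 := hS (ρ (t j)) (-1) (fun l => by rw [← map_mul, htc, map_mul]) hTj
        have h2 := hs j (mem_univ j)
        rw [h1] at h2
        have h3 : (s j - (-1)) • u' = 0 := by rw [sub_smul, ← h2, sub_self]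
        rcases smul_eq_zero.mp h3 with h4 | h4
        · linarith
        · exact absurd h4 hu'
      · have h1 := hS (ρ (t i)) 1 (fun l => by rw [← map_mul, htc, map_mul]) hTi
        have h2 := hs i (mem_univ i)
        rw [h1] at h2
        have h3 : (s i - 1) • u' = 0 := by rw [sub_smul, ← h2, sub_self]
        rcases smul_eq_zero.mp h3 with h4 | h4
        · linarith
        · exact absurd h4 hu'
    intro i j
    by_cases hij : i = j
    · rw [hij]
    · ext v
      have h1 := key i j hij v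
      have h2 := key j i (Ne.symm hij) v
      simp only [map_sub] at h1 h2
      rw [hTc j i] at h2
      have h3 : (2 : ℝ) • (ρ (t i) v - ρ (t j) v) = 0 := by
        have : (2 : ℝ) • (ρ (t i) v - ρ (t j) v)
            = ((v - ρ (t j) v) + (ρ (t i) v - ρ (t i) (ρ (t j) v)))
              - ((v - ρ (t i) v) + (ρ (t j) v - ρ (t i) (ρ (t j) v))) := by module
        rw [this, h1, h2, sub_zero]
      rcases smul_eq_zero.mp h3 with h4 | h4
      · norm_num at h4
      · exact sub_eq_zero.mp h4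

end Abstract

/-! ### The symmetric group -/

section Sym

open Equiv

/-- if a double transposition acts trivially (and there is a fifth point), every even permutation
acts trivially -/
lemma even_trivial {α : Type*} [Fintype α] [DecidableEq α] {M : Type*} [Monoid M]
    (ρ : Perm α →* M) (a b c d e : α) (hab : a ≠ b) (hac : a ≠ c) (had : a ≠ d) (hae : a ≠ e)
    (hbc : b ≠ c) (hbd : b ≠ d) (hbe : b ≠ e) (hcd : c ≠ d) (hce : c ≠ e) (hde : d ≠ e)
    (h : ρ (swap a b * swap c d) = 1) : ∀ π : Perm α, Perm.sign π = 1 → ρ π = 1 := by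
  set K : Subgroup (Perm α) := ρ.toHomUnits.ker with hK
  have hmem : ∀ π : Perm α, π ∈ K ↔ ρ π = 1 := by
    intro π
    rw [hK, MonoidHom.mem_ker]
    constructor
    · intro h'
      have := congrArg Units.val h'
      simpa using this
    · intro h'
      apply Units.ext
      simpa using h'
  have hg : swap a b * swap c d ∈ K := (hmem _).2 h
  -- conjugate by `swap d e`
  have hx : swap a b * swap c e ∈ K := by
    have hconj := (inferInstance : K.Normal).conj_mem _ hg (swap d e)
    have e1 : swap d e * (swap a b * swap c d) * (swap d e)⁻¹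
        = (swap d e * swap a b * (swap d e)⁻¹) * (swap d e * swap c d * (swap d e)⁻¹) := by
      group
    rw [e1, ← swap_apply_apply, ← swap_apply_apply] at hconj
    rw [swap_apply_of_ne_of_ne had hae, swap_apply_of_ne_of_ne hbd hbe,
      swap_apply_of_ne_of_ne hcd hce, swap_apply_left] at hconj
    exact hconj
  have hcomm : swap c d * swap a b = swap a b * swap c d := by
    have hdis : Perm.Disjoint (swap c d) (swap a b) := by
      apply Perm.disjoint_swap_swap
      simp [hcd, hac.symm, hbc.symm, had.symm, hbd.symm, hab]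
    exact hdis.commute.eq
  have h3 : swap c d * swap c e ∈ K := by
    have := K.mul_mem hg hx
    have e2 : swap a b * swap c d * (swap a b * swap c e) = swap c d * swap c e := by
      calc swap a b * swap c d * (swap a b * swap c e)
          = swap a b * (swap c d * swap a b) * swap c e := by group
        _ = swap a b * (swap a b * swap c d) * swap c e := by rw [hcomm]
        _ = (swap a b * swap a b) * swap c d * swap c e := by group
        _ = swap c d * swap c e := by rw [swap_mul_self, one_mul]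
    rwa [e2] at this
  have hc3 : Perm.IsThreeCycle (swap c d * swap c e) :=
    Perm.isThreeCycle_swap_mul_swap_same hcd hce hde
  have hall : ∀ σ : Perm α, Perm.IsThreeCycle σ → σ ∈ K := by
    intro σ hσ
    have hconj : IsConj (swap c d * swap c e) σ :=
      Perm.isConj_iff_cycleType_eq.2 (hc3.trans hσ.symm)
    obtain ⟨g, hg'⟩ := isConj_iff.1 hconj
    rw [← hg']
    exact (inferInstance : K.Normal).conj_mem _ h3 g
  have hle : alternatingGroup α ≤ K := by
    rw [← Perm.closure_three_cycles_eq_alternating]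
    exact (Subgroup.closure_le K).2 hall
  intro π hπ
  exact (hmem π).1 (hle (Perm.mem_alternatingGroup.2 hπ))

variable {V : Type*} [AddCommGroup V] [Module ℝ V] [FiniteDimensional ℝ V]

/-- the point `2i` -/
def px (N : ℕ) (i : Fin (N / 2)) : Fin N := ⟨2 * i.1, by have := i.2; omega⟩

/-- the point `2i+1` -/
def py (N : ℕ) (i : Fin (N / 2)) : Fin N := ⟨2 * i.1 + 1, by have := i.2; omega⟩

lemma px_ne_py (N : ℕ) (i j : Fin (N / 2)) : px N i ≠ py N j := by
  intro h
  have := congrArg Fin.val h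
  simp only [px, py] at this
  omega

lemma px_inj (N : ℕ) {i j : Fin (N / 2)} (h : i ≠ j) : px N i ≠ px N j := by
  intro h'
  apply h
  have := congrArg Fin.val h'
  simp only [px] at this
  exact Fin.ext (by omega)

lemma py_inj (N : ℕ) {i j : Fin (N / 2)} (h : i ≠ j) : py N i ≠ py N j := by
  intro h'
  apply h
  have := congrArg Fin.val h'
  simp only [py] at this
  exact Fin.ext (by omega)

/-- the transposition `(2i 2i+1)` -/
def tr (N : ℕ) (i : Fin (N / 2)) : Perm (Fin N) := swap (px N i) (py N i)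

/-- the exchange of the pairs `p` and `a` -/
def ex (N : ℕ) (p a : Fin (N / 2)) : Perm (Fin N) :=
  swap (px N p) (px N a) * swap (py N p) (py N a)

lemma tr_mul_self (N : ℕ) (i : Fin (N / 2)) : tr N i * tr N i = 1 := swap_mul_self _ _

lemma tr_comm (N : ℕ) (i j : Fin (N / 2)) : tr N i * tr N j = tr N j * tr N i := by
  by_cases hij : i = j
  · rw [hij]
  · have hdis : Perm.Disjoint (tr N i) (tr N j) := by
      apply Perm.disjoint_swap_swap
      simp [px_ne_py N i i, px_inj N hij, px_ne_py N i j, (px_ne_py N j i).symm, py_inj N hij,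
        px_ne_py N j j]
    exact hdis.commute.eq

lemma ex_tr (N : ℕ) (p a : Fin (N / 2)) (_hpa : p ≠ a) : ex N p a * tr N p = tr N a * ex N p a := by
  have h1 : ex N p a (px N p) = px N a := by
    simp only [ex, Perm.mul_apply]
    rw [swap_apply_of_ne_of_ne (px_ne_py N p p) (px_ne_py N p a), swap_apply_left]
  have h2 : ex N p a (py N p) = py N a := by
    simp only [ex, Perm.mul_apply]
    rw [swap_apply_left, swap_apply_of_ne_of_ne (px_ne_py N p a).symm (px_ne_py N a a).symm]
  have := swap_apply_apply (ex N p a) (px N p) (py N p)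
  rw [h1, h2] at this
  unfold tr
  rw [this]
  group

lemma ex_tr' (N : ℕ) (p a b : Fin (N / 2)) (hbp : b ≠ p) (hba : b ≠ a) :
    ex N p a * tr N b = tr N b * ex N p a := by
  have h1 : ex N p a (px N b) = px N b := by
    simp only [ex, Perm.mul_apply]
    rw [swap_apply_of_ne_of_ne (px_ne_py N b p) (px_ne_py N b a),
      swap_apply_of_ne_of_ne (px_inj N hbp) (px_inj N hba)]
  have h2 : ex N p a (py N b) = py N b := by
    simp only [ex, Perm.mul_apply]
    rw [swap_apply_of_ne_of_ne (py_inj N hbp) (py_inj N hba),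
      swap_apply_of_ne_of_ne (px_ne_py N p b).symm (px_ne_py N a b).symm]
  have := swap_apply_apply (ex N p a) (px N b) (py N b)
  rw [h1, h2] at this
  unfold tr
  nth_rewrite 2 [this]
  group

/-- **Minimal dimension.** A nonzero real representation of `Perm (Fin N)`, `N ≥ 5`, without
nonzero fixed vectors and without nonzero sign vectors has dimension at least `N / 4`. -/
theorem min_dim {N : ℕ} (hN : 5 ≤ N) (ρ : Perm (Fin N) →* Module.End ℝ V)
    (hnz : ∃ v : V, v ≠ 0) (h1 : ∀ v : V, (∀ π, ρ π v = v) → v = 0)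
    (h2 : ∀ v : V, (∀ π, ρ π v = ((Perm.sign π : ℤ) : ℝ) • v) → v = 0) :
    N / 2 ≤ 2 * Module.finrank ℝ V := by
  rcases dichotomy ρ (tr N) (ex N) (tr_mul_self N) (tr_comm N) (ex_tr N) (ex_tr' N) with h | h
  · simpa using h
  · exfalso
    have hk : 2 ≤ N / 2 := by omega
    set i₀ : Fin (N / 2) := ⟨0, by omega⟩ with hi₀
    set i₁ : Fin (N / 2) := ⟨1, by omega⟩ with hi₁
    set e : Fin N := ⟨4, by omega⟩ with he
    have h01 : ρ (tr N i₀ * tr N i₁) = 1 := by
      rw [map_mul, ← h i₀ i₁, ← map_mul, tr_mul_self, map_one]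
    have hev := even_trivial ρ (px N i₀) (py N i₀) (px N i₁) (py N i₁) e
      (by simp [px, py, hi₀, hi₁, he, Fin.ext_iff]) (by simp [px, py, hi₀, hi₁, he, Fin.ext_iff])
      (by simp [px, py, hi₀, hi₁, he, Fin.ext_iff]) (by simp [px, py, hi₀, hi₁, he, Fin.ext_iff])
      (by simp [px, py, hi₀, hi₁, he, Fin.ext_iff]) (by simp [px, py, hi₀, hi₁, he, Fin.ext_iff])
      (by simp [px, py, hi₀, hi₁, he, Fin.ext_iff]) (by simp [px, py, hi₀, hi₁, he, Fin.ext_iff])
      (by simp [px, py, hi₀, hi₁, he, Fin.ext_iff]) (by simp [px, py, hi₀, hi₁, he, Fin.ext_iff])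
      h01
    set T : Module.End ℝ V := ρ (tr N i₀) with hT
    have hTT : ∀ v : V, T (T v) = v := by
      intro v
      rw [hT, ← rho_mul_apply, tr_mul_self, map_one]; rfl
    have hsgn : Perm.sign (tr N i₀) = -1 := Perm.sign_swap (px_ne_py N i₀ i₀)
    have hodd : ∀ π : Perm (Fin N), Perm.sign π = -1 → ρ π = T := by
      intro π hπ
      have h3 : ρ (π * tr N i₀) = 1 := hev _ (by rw [Perm.sign_mul, hπ, hsgn]; simp)
      have h4 : ρ π = ρ (π * tr N i₀ * tr N i₀) := by
        rw [mul_assoc, tr_mul_self, mul_one]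
      rw [h4, map_mul, h3, one_mul]
    obtain ⟨v, hv⟩ := hnz
    have hp : v + T v = 0 := by
      apply h1
      intro π
      rcases Int.units_eq_one_or (Perm.sign π) with hs | hs
      · rw [hev π hs]; rfl
      · rw [hodd π hs, map_add, hTT, add_comm]
    have hm : v - T v = 0 := by
      apply h2
      intro π
      rcases Int.units_eq_one_or (Perm.sign π) with hs | hs
      · rw [hev π hs, hs]; simp
      · rw [hodd π hs, hs, map_sub, hTT]; simp
    apply hv
    have : (2 : ℝ) • v = 0 := by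
      have e2 : (2 : ℝ) • v = (v + T v) + (v - T v) := by module
      rw [e2, hp, hm, add_zero]
    rcases smul_eq_zero.mp this with h5 | h5
    · norm_num at h5
    · exact h5

end Sym

/-! ### Spectral input: operator norm versus Hilbert–Schmidt norm -/

section Spectral

open Matrix

variable {ι : Type*} [Fintype ι] [DecidableEq ι]

/-- spectral data of `Mᴴ * M` in dot-product form -/
lemma spectral_data (M : Matrix ι ι ℝ) :
    ∃ (lam : ι → ℝ) (b : ι → ι → ℝ),
      (∀ x y : ι → ℝ, x ⬝ᵥ y = ∑ i, (x ⬝ᵥ b i) * (b i ⬝ᵥ y)) ∧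
      (∀ i, (Mᴴ * M) *ᵥ b i = lam i • b i) ∧ (∀ i, b i ≠ 0) ∧ (∀ i, 0 ≤ lam i) ∧
      ∑ i, lam i = ∑ x, ∑ y, M x y ^ 2 := by
  classical
  have hS : (Mᴴ * M).IsHermitian := isHermitian_conjTranspose_mul_self M
  have hP : (Mᴴ * M).PosSemidef := posSemidef_conjTranspose_mul_self M
  refine ⟨hS.eigenvalues, fun i => (hS.eigenvectorBasis i).ofLp, ?_, ?_, ?_, ?_, ?_⟩
  · intro x y
    have h0 := hS.eigenvectorBasis.sum_inner_mul_inner (WithLp.toLp 2 x) (WithLp.toLp 2 y)
    have e1 : inner ℝ (WithLp.toLp 2 x) (WithLp.toLp 2 y) = x ⬝ᵥ y := by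
      rw [EuclideanSpace.inner_toLp_toLp]; simp [dotProduct_comm]
    have e2 : ∀ i, inner ℝ (WithLp.toLp 2 x) (hS.eigenvectorBasis i)
        = x ⬝ᵥ (hS.eigenvectorBasis i).ofLp := by
      intro i
      rw [EuclideanSpace.inner_eq_star_dotProduct]; simp [dotProduct_comm]
    have e3 : ∀ i, inner ℝ (hS.eigenvectorBasis i) (WithLp.toLp 2 y)
        = (hS.eigenvectorBasis i).ofLp ⬝ᵥ y := by
      intro i
      rw [EuclideanSpace.inner_eq_star_dotProduct]; simp [dotProduct_comm]
    rw [← e1, ← h0]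
    exact Finset.sum_congr rfl fun i _ => by rw [e2, e3]
  · intro i
    exact hS.mulVec_eigenvectorBasis i
  · intro i h0
    have h1 : ‖hS.eigenvectorBasis i‖ = 1 := hS.eigenvectorBasis.orthonormal.1 i
    have h2 : hS.eigenvectorBasis i = 0 := by
      ext j
      have := congrFun h0 j
      simpa using this
    rw [h2, norm_zero] at h1
    exact zero_ne_one h1
  · intro i
    exact hP.eigenvalues_nonneg i
  · have ht := hS.trace_eq_sum_eigenvalues
    simp only [RCLike.ofReal_real_eq_id, id] at ht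
    rw [← ht]
    simp only [Matrix.trace, Matrix.diag, Matrix.mul_apply, Matrix.conjTranspose_apply, star_trivial]
    rw [Finset.sum_comm]
    exact Finset.sum_congr rfl fun x _ => Finset.sum_congr rfl fun y _ => by ring

/-- **Operator norm ≤ Hilbert–Schmidt norm / √multiplicity.** If every eigenspace of `Mᴴ * M` for a
positive eigenvalue has dimension at least `m`, then `m ‖M g‖² ≤ ‖M‖_HS² ‖g‖²`. -/
theorem op_le_hs (M : Matrix ι ι ℝ) (m : ℕ)
    (hdim : ∀ μ : ℝ, 0 < μ → Module.End.eigenspace (Matrix.toLin' (Mᴴ * M)) μ ≠ ⊥ →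
      m ≤ Module.finrank ℝ (Module.End.eigenspace (Matrix.toLin' (Mᴴ * M)) μ))
    (g : ι → ℝ) :
    (m : ℝ) * ∑ x, (M *ᵥ g) x ^ 2 ≤ (∑ x, ∑ y, M x y ^ 2) * ∑ x, g x ^ 2 := by
  classical
  obtain ⟨lam, b, hpars, heig, hb0, hlam0, htr⟩ := spectral_data M
  have hsymm : ∀ x y : ι → ℝ, x ⬝ᵥ ((Mᴴ * M) *ᵥ y) = ((Mᴴ * M) *ᵥ x) ⬝ᵥ y := by
    intro x y
    rw [Matrix.dotProduct_mulVec]
    congr 1
    have hT : (Mᴴ * M)ᵀ = Mᴴ * M := by
      have := (isHermitian_conjTranspose_mul_self M).eq
      rwa [Matrix.conjTranspose_eq_transpose_of_trivial] at this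
    rw [← Matrix.mulVec_transpose, hT]
  have c1 : ∀ i (x : ι → ℝ), b i ⬝ᵥ ((Mᴴ * M) *ᵥ x) = lam i * (b i ⬝ᵥ x) := by
    intro i x
    rw [hsymm, heig, smul_dotProduct, smul_eq_mul]
  -- Rayleigh identity
  have hnorm : ∀ v : ι → ℝ, ∑ x, (M *ᵥ v) x ^ 2 = ∑ i, lam i * (v ⬝ᵥ b i) ^ 2 := by
    intro v
    have e1 : ∑ x, (M *ᵥ v) x ^ 2 = v ⬝ᵥ ((Mᴴ * M) *ᵥ v) := by
      rw [← Matrix.mulVec_mulVec, Matrix.dotProduct_mulVec,
        Matrix.conjTranspose_eq_transpose_of_trivial, Matrix.vecMul_transpose]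
      simp only [dotProduct, pow_two]
    rw [e1, hpars v ((Mᴴ * M) *ᵥ v)]
    refine Finset.sum_congr rfl fun i _ => ?_
    rw [c1, dotProduct_comm (b i) v]; ring
  have hgg : ∑ x, g x ^ 2 = ∑ i, (g ⬝ᵥ b i) ^ 2 := by
    have := hpars g g
    have e : g ⬝ᵥ g = ∑ x, g x ^ 2 := by simp only [dotProduct, pow_two]
    rw [← e, this]
    refine Finset.sum_congr rfl fun i _ => ?_
    rw [dotProduct_comm (b i) g]; ring
  rcases isEmpty_or_nonempty ι with hemp | hne
  · simp
  obtain ⟨i₀, -, hmax⟩ := Finset.exists_max_image (univ : Finset ι) lam Finset.univ_nonempty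
  have hmax' : ∀ i, lam i ≤ lam i₀ := fun i => hmax i (Finset.mem_univ i)
  have hgg0 : 0 ≤ ∑ x, g x ^ 2 := Finset.sum_nonneg fun _ _ => sq_nonneg _
  have hray : ∑ x, (M *ᵥ g) x ^ 2 ≤ lam i₀ * ∑ x, g x ^ 2 := by
    rw [hnorm g, hgg, Finset.mul_sum]
    exact Finset.sum_le_sum fun i _ => mul_le_mul_of_nonneg_right (hmax' i) (sq_nonneg _)
  rcases (hlam0 i₀).eq_or_lt with h0 | hpos
  · -- everything vanishes
    have : ∑ x, (M *ᵥ g) x ^ 2 ≤ 0 := by rw [← h0, zero_mul] at hray; exact hray
    have h1 : 0 ≤ ∑ x, (M *ᵥ g) x ^ 2 := Finset.sum_nonneg fun _ _ => sq_nonneg _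
    have h2 : ∑ x, (M *ᵥ g) x ^ 2 = 0 := le_antisymm this h1
    rw [h2, mul_zero]
    exact mul_nonneg (Finset.sum_nonneg fun _ _ => Finset.sum_nonneg fun _ _ => sq_nonneg _) hgg0
  · set W := Module.End.eigenspace (Matrix.toLin' (Mᴴ * M)) (lam i₀) with hW
    have hmemW : ∀ v : ι → ℝ, v ∈ W ↔ (Mᴴ * M) *ᵥ v = lam i₀ • v := by
      intro v
      rw [hW, Module.End.mem_eigenspace_iff, Matrix.toLin'_apply]
    have hWne : W ≠ ⊥ := by
      intro h
      have : b i₀ ∈ W := (hmemW _).2 (heig i₀)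
      rw [h, Submodule.mem_bot] at this
      exact hb0 i₀ this
    have hm := hdim (lam i₀) hpos hWne
    set I : Finset ι := univ.filter fun i => lam i = lam i₀ with hI
    have hsub : W ≤ Submodule.span ℝ ((I.image b : Finset (ι → ℝ)) : Set (ι → ℝ)) := by
      intro v hv
      have hv' := (hmemW v).1 hv
      have hcoef : ∀ i, i ∉ I → b i ⬝ᵥ v = 0 := by
        intro i hi
        have h1 := c1 i v
        rw [hv', dotProduct_smul, smul_eq_mul] at h1
        have h2 : (lam i₀ - lam i) * (b i ⬝ᵥ v) = 0 := by rw [sub_mul, h1, sub_self]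
        rcases mul_eq_zero.mp h2 with h3 | h3
        · exfalso; apply hi; rw [hI, Finset.mem_filter]; exact ⟨Finset.mem_univ i, by linarith⟩
        · exact h3
      have hv_eq : v = ∑ i ∈ I, (b i ⬝ᵥ v) • b i := by
        funext j
        have h1 := hpars (Pi.single j 1) v
        simp only [single_dotProduct, one_mul] at h1
        rw [h1, Finset.sum_apply]
        have h2 : ∑ i, b i j * (b i ⬝ᵥ v) = ∑ i ∈ I, b i j * (b i ⬝ᵥ v) := by
          symm
          apply Finset.sum_subset (Finset.subset_univ I)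
          intro i _ hi
          rw [hcoef i hi, mul_zero]
        rw [h2]
        refine Finset.sum_congr rfl fun i _ => ?_
        simp only [Pi.smul_apply, smul_eq_mul]; ring
      rw [hv_eq]
      refine Submodule.sum_mem _ fun i hi => Submodule.smul_mem _ _ (Submodule.subset_span ?_)
      exact Finset.mem_coe.2 (Finset.mem_image_of_mem b hi)
    have hfr : Module.finrank ℝ W ≤ I.card := by
      calc Module.finrank ℝ W
          ≤ Module.finrank ℝ (Submodule.span ℝ ((I.image b : Finset (ι → ℝ)) : Set (ι → ℝ))) :=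
            Submodule.finrank_mono hsub
        _ ≤ (I.image b).card := finrank_span_finset_le_card _
        _ ≤ I.card := Finset.card_image_le
    have hIsum : (I.card : ℝ) * lam i₀ ≤ ∑ i, lam i := by
      have h1 : (I.card : ℝ) * lam i₀ = ∑ i ∈ I, lam i := by
        rw [Finset.sum_congr rfl (fun i hi => (Finset.mem_filter.mp hi).2), Finset.sum_const,
          nsmul_eq_mul]
      rw [h1]
      exact Finset.sum_le_sum_of_subset_of_nonneg (Finset.subset_univ I) fun i _ _ => hlam0 i
    have hmI : (m : ℝ) ≤ I.card := by exact_mod_cast hm.trans hfr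
    calc (m : ℝ) * ∑ x, (M *ᵥ g) x ^ 2
        ≤ (m : ℝ) * (lam i₀ * ∑ x, g x ^ 2) :=
          mul_le_mul_of_nonneg_left hray (Nat.cast_nonneg m)
      _ = ((m : ℝ) * lam i₀) * ∑ x, g x ^ 2 := by ring
      _ ≤ ((I.card : ℝ) * lam i₀) * ∑ x, g x ^ 2 :=
          mul_le_mul_of_nonneg_right (mul_le_mul_of_nonneg_right hmI hpos.le) hgg0
      _ ≤ (∑ i, lam i) * ∑ x, g x ^ 2 := mul_le_mul_of_nonneg_right hIsum hgg0
      _ = (∑ x, ∑ y, M x y ^ 2) * ∑ x, g x ^ 2 := by rw [htr]

end Spectral

/-! ### Convolution operators on a finite group -/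

section Conv

open Matrix

variable {G : Type*} [Group G] [Fintype G] [DecidableEq G]

/-- the matrix of `g ↦ conv f g` -/
def convMat (f : G → ℝ) : Matrix G G ℝ := fun x y => f (x * y⁻¹)

lemma convMat_mulVec (f g : G → ℝ) : convMat f *ᵥ g = conv f g := by
  funext x
  rw [conv_eq_sum_right]
  simp only [Matrix.mulVec, dotProduct, convMat]

lemma convMat_mulVec_rt (f v : G → ℝ) (h : G) :
    convMat f *ᵥ (fun x => v (x * h)) = fun x => (convMat f *ᵥ v) (x * h) := by
  funext x
  simp only [Matrix.mulVec, dotProduct, convMat]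
  refine Fintype.sum_equiv (Equiv.mulRight h) _ _ fun y => ?_
  simp only [Equiv.coe_mulRight, _root_.mul_inv_rev, mul_assoc, mul_inv_cancel_left]

lemma convMat_transpose_mulVec_rt (f v : G → ℝ) (h : G) :
    (convMat f)ᵀ *ᵥ (fun x => v (x * h)) = fun x => ((convMat f)ᵀ *ᵥ v) (x * h) := by
  funext x
  simp only [Matrix.mulVec, dotProduct, convMat, Matrix.transpose_apply]
  refine Fintype.sum_equiv (Equiv.mulRight h) _ _ fun y => ?_
  simp only [Equiv.coe_mulRight, _root_.mul_inv_rev, mul_assoc, mul_inv_cancel_left]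

/-- **Quasirandomness, abstract form.** If every nonzero right-translation-invariant subspace of
functions on which `conv f ·` is injective has dimension at least `m`, then
`m ‖f * g‖² ≤ |G| ‖f‖² ‖g‖²`. -/
theorem conv_sq_le (m : ℕ) (f : G → ℝ)
    (hm : ∀ W : Submodule ℝ (G → ℝ), W ≠ ⊥ →
      (∀ (h : G) (v : G → ℝ), v ∈ W → (fun x => v (x * h)) ∈ W) →
      (∀ v ∈ W, convMat f *ᵥ v = 0 → v = 0) → m ≤ Module.finrank ℝ W)
    (g : G → ℝ) :
    (m : ℝ) * ∑ x, conv f g x ^ 2 ≤ (Fintype.card G : ℝ) * (∑ x, f x ^ 2) * ∑ x, g x ^ 2 := by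
  have h := op_le_hs (convMat f) m ?_ g
  · rw [convMat_mulVec] at h
    have hs : ∑ x, ∑ y, convMat f x y ^ 2 = (Fintype.card G : ℝ) * ∑ x, f x ^ 2 := by
      rw [Finset.sum_comm]
      have : ∀ y : G, ∑ x, convMat f x y ^ 2 = ∑ x, f x ^ 2 := by
        intro y
        exact Fintype.sum_equiv (Equiv.mulRight y⁻¹) _ _ fun x => rfl
      simp only [this, Finset.sum_const, Finset.card_univ, nsmul_eq_mul]
    rw [hs] at h
    exact h
  · intro μ hμ hne
    have hmemW : ∀ v : G → ℝ, v ∈ Module.End.eigenspace (Matrix.toLin' ((convMat f)ᴴ * convMat f)) μ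
        ↔ (convMat f)ᵀ *ᵥ (convMat f *ᵥ v) = μ • v := by
      intro v
      rw [Module.End.mem_eigenspace_iff, Matrix.toLin'_apply, ← Matrix.mulVec_mulVec,
        Matrix.conjTranspose_eq_transpose_of_trivial]
    apply hm _ hne
    · intro h v hv
      rw [hmemW] at hv ⊢
      rw [convMat_mulVec_rt, convMat_transpose_mulVec_rt]
      funext x
      have := congrFun hv (x * h)
      simpa using this
    · intro v hv h0
      rw [hmemW, h0, Matrix.mulVec_zero] at hv
      rcases smul_eq_zero.mp hv.symm with h1 | h1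
      · exact absurd h1 hμ.ne'
      · exact h1

end Conv

/-! ### The symmetric group: doubling -/

section PermConv

open Equiv Matrix

/-- right translation as a linear map -/
def rtLin {G : Type*} [Group G] (h : G) : (G → ℝ) →ₗ[ℝ] (G → ℝ) where
  toFun v := fun x => v (x * h)
  map_add' _ _ := rfl
  map_smul' _ _ := rfl

/-- right translations on an invariant subspace, as a representation -/
def rtRep {G : Type*} [Group G] (W : Submodule ℝ (G → ℝ))
    (hW : ∀ (h : G) (v : G → ℝ), v ∈ W → (fun x => v (x * h)) ∈ W) : G →* Module.End ℝ W where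
  toFun h := (rtLin h).restrict (fun v hv => hW h v hv)
  map_one' := by
    apply LinearMap.ext
    intro v
    apply Subtype.ext
    funext x
    show (v : G → ℝ) (x * 1) = (v : G → ℝ) x
    rw [mul_one]
  map_mul' h k := by
    apply LinearMap.ext
    intro v
    apply Subtype.ext
    funext x
    show (v : G → ℝ) (x * (h * k)) = (v : G → ℝ) (x * h * k)
    rw [mul_assoc]

lemma rtRep_apply {G : Type*} [Group G] (W : Submodule ℝ (G → ℝ))
    (hW : ∀ (h : G) (v : G → ℝ), v ∈ W → (fun x => v (x * h)) ∈ W) (h : G) (v : W) (x : G) :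
    ((rtRep W hW h v : W) : G → ℝ) x = (v : G → ℝ) (x * h) := rfl

variable {N : ℕ}

lemma sign_mul_self_real (x : Perm (Fin N)) :
    ((Perm.sign x : ℤ) : ℝ) * ((Perm.sign x : ℤ) : ℝ) = 1 := by
  rcases Int.units_eq_one_or (Perm.sign x) with h | h <;> rw [h] <;> simp

/-- a nonzero translation-invariant subspace on which `conv f ·` is injective has dimension at
least `N / 4`, if `f` has mean zero and is orthogonal to the sign -/
theorem perm_dim (hN : 5 ≤ N) (f : Perm (Fin N) → ℝ) (hf1 : ∑ x, f x = 0)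
    (hf2 : ∑ x, ((Perm.sign x : ℤ) : ℝ) * f x = 0)
    (W : Submodule ℝ (Perm (Fin N) → ℝ)) (hne : W ≠ ⊥)
    (hW : ∀ (h : Perm (Fin N)) (v : Perm (Fin N) → ℝ), v ∈ W → (fun x => v (x * h)) ∈ W)
    (hker : ∀ v ∈ W, convMat f *ᵥ v = 0 → v = 0) : N / 4 ≤ Module.finrank ℝ W := by
  have key : N / 2 ≤ 2 * Module.finrank ℝ W := by
    refine min_dim hN (rtRep W hW) ?_ ?_ ?_
    · obtain ⟨v, hv, hv0⟩ := (Submodule.ne_bot_iff W).1 hne
      exact ⟨⟨v, hv⟩, fun h => hv0 (congrArg Subtype.val h)⟩
    · intro v hfix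
      have hc : ∀ x, (v : Perm (Fin N) → ℝ) x = (v : Perm (Fin N) → ℝ) 1 := by
        intro x
        have := congrFun (congrArg Subtype.val (hfix x)) 1
        rw [rtRep_apply, one_mul] at this
        exact this
      apply Subtype.ext
      apply hker v v.2
      funext x
      simp only [Matrix.mulVec, dotProduct, convMat, Pi.zero_apply]
      have h3 : ∑ y, f (x * y⁻¹) * (v : Perm (Fin N) → ℝ) y
          = (v : Perm (Fin N) → ℝ) 1 * ∑ z, f z := by
        rw [Finset.mul_sum]
        refine Fintype.sum_equiv ((Equiv.inv _).trans (Equiv.mulLeft x)) _ _ fun y => ?_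
        rw [hc y]
        simp only [Equiv.trans_apply, Equiv.inv_apply, Equiv.coe_mulLeft]
        ring
      rw [h3, hf1, mul_zero]
    · intro v hsgn
      have hc : ∀ x, (v : Perm (Fin N) → ℝ) x
          = ((Perm.sign x : ℤ) : ℝ) * (v : Perm (Fin N) → ℝ) 1 := by
        intro x
        have := congrFun (congrArg Subtype.val (hsgn x)) 1
        rw [rtRep_apply, one_mul] at this
        rw [this]
        rfl
      apply Subtype.ext
      apply hker v v.2
      funext x
      simp only [Matrix.mulVec, dotProduct, convMat, Pi.zero_apply]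
      have h3 : ∑ y, f (x * y⁻¹) * (v : Perm (Fin N) → ℝ) y
          = ((Perm.sign x : ℤ) : ℝ) * (v : Perm (Fin N) → ℝ) 1
            * ∑ z, ((Perm.sign z : ℤ) : ℝ) * f z := by
        rw [Finset.mul_sum]
        refine Fintype.sum_equiv ((Equiv.inv _).trans (Equiv.mulLeft x)) _ _ fun y => ?_
        rw [hc y]
        simp only [Equiv.trans_apply, Equiv.inv_apply, Equiv.coe_mulLeft, Perm.sign_mul,
          Perm.sign_inv, Units.val_mul, Int.cast_mul]
        have := sign_mul_self_real x
        linear_combination (- ((Perm.sign y : ℤ) : ℝ) * (v : Perm (Fin N) → ℝ) 1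
          * f (x * y⁻¹)) * this
      rw [h3, hf2, mul_zero]
  omega

/-- **Quasirandomness for `S_N`.** -/
theorem bnp (hN : 5 ≤ N) (f g : Perm (Fin N) → ℝ) (hf1 : ∑ x, f x = 0)
    (hf2 : ∑ x, ((Perm.sign x : ℤ) : ℝ) * f x = 0) :
    ((N / 4 : ℕ) : ℝ) * ∑ x, conv f g x ^ 2
      ≤ (N.factorial : ℝ) * (∑ x, f x ^ 2) * ∑ x, g x ^ 2 := by
  have := conv_sq_le (N / 4) f (fun W hne hW hker => perm_dim hN f hf1 hf2 W hne hW hker) g
  rwa [Fintype.card_perm, Fintype.card_fin] at this

lemma sum_sign_eq_zero (hN : 2 ≤ N) : ∑ x : Perm (Fin N), ((Perm.sign x : ℤ) : ℝ) = 0 := by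
  set τ : Perm (Fin N) := swap ⟨0, by omega⟩ ⟨1, by omega⟩ with hτ
  have hτs : Perm.sign τ = -1 := Perm.sign_swap (by simp [Fin.ext_iff])
  have h1 : ∑ x : Perm (Fin N), ((Perm.sign x : ℤ) : ℝ)
      = ∑ x : Perm (Fin N), ((Perm.sign (x * τ) : ℤ) : ℝ) :=
    (Fintype.sum_equiv (Equiv.mulRight τ) _ _ fun x => rfl).symm
  have h2 : ∑ x : Perm (Fin N), ((Perm.sign (x * τ) : ℤ) : ℝ)
      = - ∑ x : Perm (Fin N), ((Perm.sign x : ℤ) : ℝ) := by
    rw [← Finset.sum_neg_distrib]
    refine Finset.sum_congr rfl fun x _ => ?_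
    rw [Perm.sign_mul, hτs]; simp
  linarith

/-- **Doubling for chi-square on `S_N`.** If `μ`, `ν` have total mass one and `μ` is orthogonal to
the sign character, then `(N/4) χ²(μ * ν) ≤ χ²(μ) χ²(ν)`. -/
theorem chi2_conv_le (hN : 5 ≤ N) (μ ν : Perm (Fin N) → ℝ) (hμ : ∑ x, μ x = 1)
    (hν : ∑ x, ν x = 1) (hsg : ∑ x, ((Perm.sign x : ℤ) : ℝ) * μ x = 0) :
    ((N / 4 : ℕ) : ℝ) * chi2 (conv μ ν) ≤ chi2 μ * chi2 ν := by
  have hcard : (0 : ℝ) < (Fintype.card (Perm (Fin N)) : ℝ) := card_pos_real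
  have hcN : (Fintype.card (Perm (Fin N)) : ℝ) = (N.factorial : ℝ) := by
    rw [Fintype.card_perm, Fintype.card_fin]
  set u : ℝ := 1 / (Fintype.card (Perm (Fin N)) : ℝ) with hu
  have hcu : (Fintype.card (Perm (Fin N)) : ℝ) * u = 1 := by
    rw [hu]; field_simp
  have hconv : ∀ x, conv (fun y => μ y - u) (fun y => ν y - u) x = conv μ ν x - u := by
    intro x
    unfold conv
    have h1 : ∑ h, ν (h⁻¹ * x) = 1 := by
      rw [← hν]
      exact Fintype.sum_equiv ((Equiv.inv _).trans (Equiv.mulRight x)) _ _ fun _ => rfl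
    have h2 : ∀ h, (μ h - u) * (ν (h⁻¹ * x) - u)
        = μ h * ν (h⁻¹ * x) - u * μ h - u * ν (h⁻¹ * x) + u * u := by
      intro h; ring
    simp only [h2, Finset.sum_add_distrib, Finset.sum_sub_distrib, ← Finset.mul_sum, hμ, h1,
      Finset.sum_const, Finset.card_univ, nsmul_eq_mul]
    linear_combination u * hcu
  have hf1 : ∑ x, (μ x - u) = 0 := by
    rw [Finset.sum_sub_distrib, hμ, Finset.sum_const, Finset.card_univ, nsmul_eq_mul, hcu,
      sub_self]
  have hf2 : ∑ x, ((Perm.sign x : ℤ) : ℝ) * (μ x - u) = 0 := by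
    simp only [mul_sub, Finset.sum_sub_distrib, ← Finset.sum_mul, hsg,
      sum_sign_eq_zero (show 2 ≤ N by omega), zero_mul, sub_zero]
  have key := bnp hN (fun y => μ y - u) (fun y => ν y - u) hf1 hf2
  simp only [hconv] at key
  unfold chi2
  rw [← hu, hcN]
  have h0 : (0 : ℝ) ≤ (N.factorial : ℝ) := Nat.cast_nonneg _
  calc ((N / 4 : ℕ) : ℝ) * ((N.factorial : ℝ) * ∑ g, (conv μ ν g - u) ^ 2)
      = (N.factorial : ℝ) * (((N / 4 : ℕ) : ℝ) * ∑ g, (conv μ ν g - u) ^ 2) := by ring
    _ ≤ (N.factorial : ℝ) * ((N.factorial : ℝ) * (∑ x, (μ x - u) ^ 2) * ∑ x, (ν x - u) ^ 2) :=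
        mul_le_mul_of_nonneg_left key h0
    _ = (N.factorial : ℝ) * (∑ g, (μ g - u) ^ 2) * ((N.factorial : ℝ) * ∑ g, (ν g - u) ^ 2) := by
        ring

end PermConv

/-! ### The shuffle law is orthogonal to the sign character -/

section SignFree

open Equiv Crest.ProbabilityR.Shuffle Crest.Agent.S0223

variable (m : ℕ)

/-- flipping one coin multiplies the step permutation by a transposition -/
lemma stepPerm_flip (c : Fin m → Bool) (u : Fin m) :
    stepPerm m (Function.update c u (!c u))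
      = swap (⟨2 * u.1, by have := u.2; omega⟩ : Fin (2 * m))
          ⟨2 * u.1 + 1, by have := u.2; omega⟩ * stepPerm m c := by
  ext x
  rw [Perm.mul_apply, coe_stepPerm, coe_stepPerm]
  have hx := x.isLt
  have hu := u.2
  have hxm : x.val % m < m := Nat.mod_lt _ (by omega)
  have hval : ∀ c' : Fin m → Bool, (stepPos m c' x).val = 2 * (x.val % m) +
      (if xor (decide (m ≤ x.val)) (c' ⟨x.val % m, hxm⟩) then 1 else 0) := fun c' => rfl
  by_cases hxu : x.val % m = u.val
  · have e1 : (⟨x.val % m, hxm⟩ : Fin m) = u := Fin.ext hxu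
    have h1 : (Function.update c u (!c u)) ⟨x.val % m, hxm⟩ = !c ⟨x.val % m, hxm⟩ := by
      rw [e1, Function.update_self]
    rcases Bool.eq_false_or_eq_true (xor (decide (m ≤ x.val)) (c ⟨x.val % m, hxm⟩)) with hb | hb
    · have e2 : stepPos m c x = ⟨2 * u.1 + 1, by omega⟩ :=
        Fin.ext (by rw [hval, hb, hxu]; simp)
      have e3 : stepPos m (Function.update c u (!c u)) x = ⟨2 * u.1, by omega⟩ :=
        Fin.ext (by rw [hval, h1, Bool.xor_not, hb, hxu]; simp)
      rw [e2, e3, swap_apply_right]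
    · have e2 : stepPos m c x = ⟨2 * u.1, by omega⟩ :=
        Fin.ext (by rw [hval, hb, hxu]; simp)
      have e3 : stepPos m (Function.update c u (!c u)) x = ⟨2 * u.1 + 1, by omega⟩ :=
        Fin.ext (by rw [hval, h1, Bool.xor_not, hb, hxu]; simp)
      rw [e2, e3, swap_apply_left]
  · have hne : (⟨x.val % m, hxm⟩ : Fin m) ≠ u := fun h => hxu (congrArg Fin.val h)
    have h1 : (Function.update c u (!c u)) ⟨x.val % m, hxm⟩ = c ⟨x.val % m, hxm⟩ :=
      Function.update_of_ne hne _ _
    have e3 : stepPos m (Function.update c u (!c u)) x = stepPos m c x :=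
      Fin.ext (by rw [hval, hval, h1])
    rw [e3, swap_apply_of_ne_of_ne]
    · intro h
      have := congrArg Fin.val h
      rw [hval] at this
      simp only at this
      split_ifs at this <;> omega
    · intro h
      have := congrArg Fin.val h
      rw [hval] at this
      simp only at this
      split_ifs at this <;> omega

/-- after at least one shuffle the law is orthogonal to the sign character -/
theorem sum_sign_law (hm : 0 < m) (t : ℕ) :
    ∑ g, ((Perm.sign g : ℤ) : ℝ) * law m (t + 1) g = 0 := by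
  have h0 : ∑ g, law m (t + 1) g * ((Perm.sign g : ℤ) : ℝ)
      = (∑ cs, ((Perm.sign (runPerm m (t + 1) cs) : ℤ) : ℝ))
        / (Fintype.card (Fin (t + 1) → Fin m → Bool) : ℝ) :=
    sum_pushLaw_mul (runPerm m (t + 1)) (fun g => ((Perm.sign g : ℤ) : ℝ))
  have h1 : ∑ cs, ((Perm.sign (runPerm m (t + 1) cs) : ℤ) : ℝ) = 0 := by
    set u₀ : Fin m := ⟨0, hm⟩ with hu₀
    set σ : (Fin (t + 1) → Fin m → Bool) → (Fin (t + 1) → Fin m → Bool) := fun cs =>
      Function.update cs (Fin.last t)
        (Function.update (cs (Fin.last t)) u₀ (!(cs (Fin.last t) u₀))) with hσdef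
    have hσ : Function.Involutive σ := by
      intro cs
      funext i
      by_cases hi : i = Fin.last t
      · subst hi
        simp only [hσdef, Function.update_self]
        funext u
        by_cases hu : u = u₀
        · subst hu; simp
        · simp [Function.update_of_ne hu]
      · simp [hσdef, Function.update_of_ne hi]
    have hflip : ∀ cs, ((Perm.sign (runPerm m (t + 1) (σ cs)) : ℤ) : ℝ)
        = - ((Perm.sign (runPerm m (t + 1) cs) : ℤ) : ℝ) := by
      intro cs
      rw [runPerm_succ, runPerm_succ]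
      have e1 : (σ cs) (Fin.last t)
          = Function.update (cs (Fin.last t)) u₀ (!(cs (Fin.last t) u₀)) := by
        simp [hσdef]
      have e2 : (fun i : Fin t => (σ cs) i.castSucc) = fun i => cs i.castSucc := by
        funext i
        simp [hσdef, Function.update_of_ne (Fin.castSucc_lt_last i).ne]
      rw [e1, e2, stepPerm_flip, Perm.sign_mul, Perm.sign_mul, Perm.sign_mul,
        Perm.sign_swap (by simp [Fin.ext_iff])]
      simp
    have h2 : ∑ cs, ((Perm.sign (runPerm m (t + 1) cs) : ℤ) : ℝ)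
        = ∑ cs, ((Perm.sign (runPerm m (t + 1) (σ cs)) : ℤ) : ℝ) :=
      (Fintype.sum_equiv hσ.toPerm _ _ fun cs => rfl).symm
    rw [Finset.sum_congr rfl (fun cs _ => hflip cs), Finset.sum_neg_distrib] at h2
    linarith
  rw [h1, zero_div] at h0
  rw [← h0]
  exact Finset.sum_congr rfl fun g _ => mul_comm _ _

/-- **Doubling for the shuffle.** -/
theorem chi2Shuffle_add_le (hm : 3 ≤ m) (s t : ℕ) (ht : 1 ≤ t) :
    (((2 * m) / 4 : ℕ) : ℝ) * chi2Shuffle m (s + t) ≤ chi2Shuffle m t * chi2Shuffle m s := by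
  unfold chi2Shuffle
  rw [law_add]
  obtain ⟨t', rfl⟩ : ∃ t', t = t' + 1 := ⟨t - 1, by omega⟩
  exact chi2_conv_le (by omega) _ _ (sum_law m _) (sum_law m _) (sum_sign_law m (by omega) t')


/-- iterated doubling -/
theorem chi2Shuffle_pow_le (hm : 3 ≤ m) (t : ℕ) (ht : 1 ≤ t) (k : ℕ) :
    (((2 * m) / 4 : ℕ) : ℝ) ^ (2 ^ k - 1) * chi2Shuffle m (2 ^ k * t)
      ≤ chi2Shuffle m t ^ (2 ^ k) := by
  induction k with
  | zero => simp
  | succ k ih =>
    set q : ℝ := (((2 * m) / 4 : ℕ) : ℝ) with hq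
    have hq0 : 0 ≤ q := Nat.cast_nonneg _
    have hk1 : 1 ≤ 2 ^ k := Nat.one_le_two_pow
    have hdbl := chi2Shuffle_add_le m hm (2 ^ k * t) (2 ^ k * t)
      (by calc 1 = 1 * 1 := rfl
             _ ≤ 2 ^ k * t := Nat.mul_le_mul hk1 ht)
    rw [← hq] at hdbl
    have e1 : 2 ^ (k + 1) * t = 2 ^ k * t + 2 ^ k * t := by ring
    have e2 : 2 ^ (k + 1) - 1 = (2 ^ k - 1) * 2 + 1 := by
      have : 2 ^ (k + 1) = 2 ^ k * 2 := pow_succ 2 k
      omega
    have e3 : 2 ^ (k + 1) = 2 ^ k * 2 := pow_succ 2 k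
    have ha0 : 0 ≤ chi2Shuffle m (2 ^ k * t) := chi2_nonneg _
    have hqa : 0 ≤ q ^ (2 ^ k - 1) * chi2Shuffle m (2 ^ k * t) :=
      mul_nonneg (pow_nonneg hq0 _) ha0
    calc q ^ (2 ^ (k + 1) - 1) * chi2Shuffle m (2 ^ (k + 1) * t)
        = (q ^ (2 ^ k - 1)) ^ 2 * (q * chi2Shuffle m (2 ^ k * t + 2 ^ k * t)) := by
          rw [e1, e2, pow_succ, pow_mul]; ring
      _ ≤ (q ^ (2 ^ k - 1)) ^ 2 * (chi2Shuffle m (2 ^ k * t) * chi2Shuffle m (2 ^ k * t)) :=
          mul_le_mul_of_nonneg_left hdbl (sq_nonneg _)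
      _ = (q ^ (2 ^ k - 1) * chi2Shuffle m (2 ^ k * t)) ^ 2 := by ring
      _ ≤ (chi2Shuffle m t ^ (2 ^ k)) ^ 2 := pow_le_pow_left₀ hqa ih 2
      _ = chi2Shuffle m t ^ (2 ^ (k + 1)) := by rw [e3, pow_mul]

end SignFree

/-! ### Glue for S0222 -/

section Glue

open Crest.ProbabilityR.Shuffle

/-- **Glue, general form.** If `χ²` after `j` sweeps is at most `B d`, and
`B d ^ (2^k) / (2^(d-1))^(2^k - 1) → 0`, and `2^k j ≤ 1600`, then the frozen S0222 statement
holds. -/
theorem tendsto_of_chi2_pow (j k : ℕ) (hj : 1 ≤ j) (hjk : 2 ^ k * j ≤ 1600) (B : ℕ → ℝ)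
    (hB : Filter.Tendsto (fun d : ℕ => B d ^ (2 ^ k) / ((2 : ℝ) ^ (d - 1)) ^ (2 ^ k - 1))
      Filter.atTop (nhds 0))
    (h : ∀ᶠ d in Filter.atTop, chi2Shuffle (2 ^ d) (j * (d + 1)) ≤ B d) :
    Filter.Tendsto (fun d : ℕ => tvFromUniform (2 ^ d) (1600 * (d + 1)))
      Filter.atTop (nhds 0) := by
  refine tendsto_of_chi2 (2 ^ k * j) hjk _ hB ?_
  filter_upwards [h, Filter.eventually_ge_atTop 2] with d hd hd2
  have hm : 3 ≤ 2 ^ d := by
    calc 3 ≤ 2 ^ 2 := by norm_num
      _ ≤ 2 ^ d := Nat.pow_le_pow_right (by norm_num) hd2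
  have hq : (2 * 2 ^ d) / 4 = 2 ^ (d - 1) := by
    obtain ⟨e, rfl⟩ : ∃ e, d = e + 2 := ⟨d - 2, by omega⟩
    have : 2 * 2 ^ (e + 2) = 2 ^ (e + 2 - 1) * 4 := by
      rw [show e + 2 - 1 = e + 1 by omega]; ring
    rw [this, Nat.mul_div_cancel _ (by norm_num : 0 < 4)]
  have key := chi2Shuffle_pow_le (2 ^ d) hm (j * (d + 1)) (Nat.mul_pos hj (Nat.succ_pos d)) k
  rw [hq, ← mul_assoc] at key
  push_cast at key
  have h0 : 0 ≤ chi2Shuffle (2 ^ d) (j * (d + 1)) := chi2_nonneg _
  have hpos : (0 : ℝ) < ((2 : ℝ) ^ (d - 1)) ^ (2 ^ k - 1) := by positivity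
  rw [le_div_iff₀ hpos, mul_comm]
  exact key.trans (pow_le_pow_left₀ h0 hd _)


/-- **Glue, polynomial form (L3).** If for one `j` with `2^k j ≤ 1600` the chi-square after `j`
sweeps is at most `C N^A` (`N = 2^(d+1)` cards) with `A < 1 - 2^(-k)`, i.e. `A 2^k < 2^k - 1`,
then the frozen S0222 statement holds. -/
theorem tendsto_of_chi2_rpow (j k : ℕ) (hj : 1 ≤ j) (hjk : 2 ^ k * j ≤ 1600) (C A : ℝ)
    (hA : A * 2 ^ k < 2 ^ k - 1)
    (h : ∀ᶠ d in Filter.atTop,
      chi2Shuffle (2 ^ d) (j * (d + 1)) ≤ C * ((2 : ℝ) ^ (d + 1)) ^ A) :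
    Filter.Tendsto (fun d : ℕ => tvFromUniform (2 ^ d) (1600 * (d + 1)))
      Filter.atTop (nhds 0) := by
  refine tendsto_of_chi2_pow j k hj hjk (fun d => C * ((2 : ℝ) ^ (d + 1)) ^ A) ?_ h
  have hK1 : 1 ≤ 2 ^ k := Nat.one_le_two_pow
  have hs0 : 0 < (2 : ℝ) ^ A := Real.rpow_pos_of_pos (by norm_num) A
  have hr0 : 0 ≤ ((2 : ℝ) ^ A) ^ (2 ^ k) / (2 : ℝ) ^ (2 ^ k - 1) := by positivity
  have hr1 : ((2 : ℝ) ^ A) ^ (2 ^ k) / (2 : ℝ) ^ (2 ^ k - 1) < 1 := by
    rw [div_lt_one (by positivity)]
    have e1 : ((2 : ℝ) ^ A) ^ (2 ^ k) = (2 : ℝ) ^ (A * ((2 ^ k : ℕ) : ℝ)) := by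
      rw [Real.rpow_mul (by norm_num), Real.rpow_natCast]
    have e2 : (2 : ℝ) ^ (2 ^ k - 1) = (2 : ℝ) ^ (((2 ^ k : ℕ) : ℝ) - 1) := by
      rw [← Real.rpow_natCast, Nat.cast_sub hK1, Nat.cast_one]
    rw [e1, e2]
    apply Real.rpow_lt_rpow_of_exponent_lt (by norm_num)
    push_cast
    exact hA
  have hlim : Filter.Tendsto (fun d : ℕ => C ^ (2 ^ k) * (((2 : ℝ) ^ A) ^ (2 ^ k)) ^ 2
      * (((2 : ℝ) ^ A) ^ (2 ^ k) / (2 : ℝ) ^ (2 ^ k - 1)) ^ (d - 1)) Filter.atTop (nhds 0) := by
    have h1 : Filter.Tendsto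
        (fun d : ℕ => (((2 : ℝ) ^ A) ^ (2 ^ k) / (2 : ℝ) ^ (2 ^ k - 1)) ^ (d - 1))
        Filter.atTop (nhds 0) :=
      (tendsto_pow_atTop_nhds_zero_of_lt_one hr0 hr1).comp (Filter.tendsto_sub_atTop_nat 1)
    simpa using h1.const_mul (C ^ (2 ^ k) * (((2 : ℝ) ^ A) ^ (2 ^ k)) ^ 2)
  refine hlim.congr' ?_
  filter_upwards [Filter.eventually_ge_atTop 1] with d hd
  obtain ⟨e, rfl⟩ : ∃ e, d = e + 1 := ⟨d - 1, by omega⟩
  simp only [Nat.add_sub_cancel]
  have e3 : ((2 : ℝ) ^ (e + 1 + 1)) ^ A = ((2 : ℝ) ^ A) ^ (e + 1 + 1) := by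
    rw [Real.rpow_pow_comm (by norm_num)]
  rw [e3, div_pow]
  generalize (2 : ℝ) ^ A = s at hs0 ⊢
  generalize 2 ^ k - 1 = L
  generalize 2 ^ k = K
  have h2 : ((2 : ℝ) ^ L) ^ e ≠ 0 := by positivity
  have h3 : ((2 : ℝ) ^ e) ^ L ≠ 0 := by positivity
  field_simp
  ring

end Glue

end Crest.Agent.S0222R.BNP
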