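/-
Row 155 (S0222), interface module (helper64): the static frame.

One shuffle is `rot * swp c`: first swap the pairs `{u, u + m}` selected by the coins `c`, then
apply the fixed permutation `rot` (the perfect shuffle = cyclic rotation of the bits when
`m = 2 ^ d`).  Hence `t` shuffles are `rot ^ t` times a product of conjugated swaps
`swpK k c = rot⁻ᵏ * swp c * rotᵏ`, and the distance from uniform is that of the law of the
product of the conjugated swaps (`staticLaw`).
-/
import Crest.Agent.S0222.Law

set_option autoImplicit false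
set_option linter.unusedSectionVars false

namespace Crest.Agent.S0222R

open Crest.ProbabilityR.Shuffle Crest.Agent.S0223
open Finset

/-! ### Generic translation lemmas -/

section Generic

variable {Ω G : Type*} [Fintype Ω] [Group G] [Fintype G] [DecidableEq G]

lemma pushLaw_mul_left (a : G) (X : Ω → G) (g : G) :
    pushLaw (fun ω => a * X ω) g = pushLaw X (a⁻¹ * g) := by
  unfold pushLaw
  congr 2
  apply congrArg
  apply Finset.filter_congr
  intro ω _
  rw [eq_inv_mul_iff_mul_eq]

/-- `tv` is invariant under left translation of the vector. -/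
lemma tv_translate (μ : G → ℝ) (a : G) : tv (fun g => μ (a⁻¹ * g)) = tv μ := by
  unfold tv
  rw [sum_abs_translate μ _ a]

/-- `chi2` is invariant under left translation of the vector. -/
lemma chi2_translate (μ : G → ℝ) (a : G) : chi2 (fun g => μ (a⁻¹ * g)) = chi2 μ := by
  unfold chi2
  congr 1
  exact Fintype.sum_equiv (Equiv.mulLeft a⁻¹) _ _ fun _ => rfl

end Generic

/-! ### One shuffle = swap layer, then rotation -/

section Step

variable (m : ℕ)

/-- The index `x % m` of the pair `{u, u + m}` containing the position `x`. -/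
def lowIdx (x : Fin (2 * m)) : Fin m :=
  ⟨x.val % m, Nat.mod_lt _ (by have hx := x.isLt; omega)⟩

lemma stepPos_val (c : Fin m → Bool) (x : Fin (2 * m)) :
    (stepPos m c x).val
      = 2 * (x.val % m) + (if xor (decide (m ≤ x.val)) (c (lowIdx m x)) then 1 else 0) := rfl

/-- The partner of `x` in its pair: `x + m` or `x - m`. -/
def flipTop (x : Fin (2 * m)) : Fin (2 * m) :=
  ⟨if m ≤ x.val then x.val - m else x.val + m, by have hx := x.isLt; split <;> omega⟩

lemma flipTop_val (x : Fin (2 * m)) :
    (flipTop m x).val = if m ≤ x.val then x.val - m else x.val + m := rfl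

lemma flipTop_flipTop (x : Fin (2 * m)) : flipTop m (flipTop m x) = x := by
  apply Fin.ext
  have hx := x.isLt
  simp only [flipTop_val]
  split_ifs <;> omega

lemma flipTop_mod (x : Fin (2 * m)) : (flipTop m x).val % m = x.val % m := by
  have hx := x.isLt
  rw [flipTop_val]
  split_ifs with h
  · have : x.val = (x.val - m) + m := by omega
    conv_rhs => rw [this, Nat.add_mod_right]
  · rw [Nat.add_mod_right]

lemma lowIdx_flipTop (x : Fin (2 * m)) : lowIdx m (flipTop m x) = lowIdx m x :=
  Fin.ext (flipTop_mod m x)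

lemma flipTop_le_iff (x : Fin (2 * m)) : m ≤ (flipTop m x).val ↔ ¬ m ≤ x.val := by
  have hx := x.isLt
  rw [flipTop_val]
  split_ifs with h <;> omega

lemma flipTop_ne (x : Fin (2 * m)) : flipTop m x ≠ x := by
  intro h
  have h1 := congrArg Fin.val h
  have hx := x.isLt
  rw [flipTop_val] at h1
  split_ifs at h1 <;> omega

/-- The swap layer as a function: swap `u` and `u + m` exactly when `c u`. -/
def swpFun (c : Fin m → Bool) (x : Fin (2 * m)) : Fin (2 * m) :=
  if c (lowIdx m x) then flipTop m x else x

lemma lowIdx_swpFun (c : Fin m → Bool) (x : Fin (2 * m)) :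
    lowIdx m (swpFun m c x) = lowIdx m x := by
  unfold swpFun
  split_ifs
  · exact lowIdx_flipTop m x
  · rfl

lemma swpFun_involutive (c : Fin m → Bool) : Function.Involutive (swpFun m c) := by
  intro x
  have h := lowIdx_swpFun m c x
  by_cases hc : c (lowIdx m x) = true
  · have e1 : swpFun m c x = flipTop m x := by unfold swpFun; rw [if_pos hc]
    unfold swpFun at h ⊢
    rw [if_pos hc] at h ⊢
    rw [h, if_pos hc, flipTop_flipTop]
  · unfold swpFun at h ⊢
    rw [if_neg hc] at h ⊢
    rw [if_neg hc]

/-- The swap layer with coins `c`, as a permutation. -/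
def swp (c : Fin m → Bool) : Equiv.Perm (Fin (2 * m)) :=
  (swpFun_involutive m c).toPerm _

lemma swp_apply (c : Fin m → Bool) (x : Fin (2 * m)) : swp m c x = swpFun m c x := rfl

lemma swp_mul_self (c : Fin m → Bool) : swp m c * swp m c = 1 := by
  apply Equiv.ext
  intro x
  exact swpFun_involutive m c x

lemma swp_inv (c : Fin m → Bool) : (swp m c)⁻¹ = swp m c :=
  inv_eq_of_mul_eq_one_right (swp_mul_self m c)

/-- The fixed permutation applied after the swaps: a shuffle with all coins `false`. -/
noncomputable def rot : Equiv.Perm (Fin (2 * m)) := stepPerm m (fun _ => false)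

lemma rot_val (x : Fin (2 * m)) :
    (rot m x).val = 2 * (x.val % m) + (if m ≤ x.val then 1 else 0) := by
  show (stepPos m (fun _ => false) x).val = _
  rw [stepPos_val]
  simp

/-- One shuffle: swap layer first, then the rotation. -/
lemma stepPerm_eq (c : Fin m → Bool) : stepPerm m c = rot m * swp m c := by
  apply Equiv.ext
  intro x
  apply Fin.ext
  show (stepPos m c x).val = (rot m (swpFun m c x)).val
  rw [rot_val, stepPos_val]
  have hx := x.isLt
  by_cases hc : c (lowIdx m x) = true
  · have e1 : swpFun m c x = flipTop m x := by unfold swpFun; rw [if_pos hc]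
    rw [e1, flipTop_mod, hc]
    by_cases hle : m ≤ x.val
    · have h2 : ¬ m ≤ (flipTop m x).val := by rw [flipTop_le_iff]; exact not_not.mpr hle
      simp [hle, h2]
    · have h2 : m ≤ (flipTop m x).val := by rw [flipTop_le_iff]; exact hle
      simp [hle, h2]
  · have e1 : swpFun m c x = x := by unfold swpFun; rw [if_neg hc]
    have hc' : c (lowIdx m x) = false := by simpa using hc
    rw [e1, hc']
    by_cases hle : m ≤ x.val <;> simp [hle]

/-- The swap layer conjugated by `k` rotations (the `k`-th step seen in the static frame). -/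
noncomputable def swpK (k : ℕ) (c : Fin m → Bool) : Equiv.Perm (Fin (2 * m)) :=
  (rot m)⁻¹ ^ k * swp m c * (rot m) ^ k

/-- The product of the conjugated swap layers of `t` shuffles (latest on the left). -/
noncomputable def staticRun : (t : ℕ) → (Fin t → Fin m → Bool) → Equiv.Perm (Fin (2 * m))
  | 0, _ => 1
  | t + 1, cs => swpK m t (cs (Fin.last t)) * staticRun t (fun i => cs i.castSucc)

lemma staticRun_zero (cs : Fin 0 → Fin m → Bool) : staticRun m 0 cs = 1 := rfl

lemma staticRun_succ (t : ℕ) (cs : Fin (t + 1) → Fin m → Bool) :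
    staticRun m (t + 1) cs
      = swpK m t (cs (Fin.last t)) * staticRun m t (fun i => cs i.castSucc) := rfl

/-- `t` shuffles are `rot ^ t` times the static product. -/
lemma runPerm_eq_static : ∀ (t : ℕ) (cs : Fin t → Fin m → Bool),
    runPerm m t cs = (rot m) ^ t * staticRun m t cs
  | 0, cs => by rw [runPerm_zero, staticRun_zero, pow_zero, one_mul]
  | t + 1, cs => by
      rw [runPerm_succ, runPerm_eq_static t, stepPerm_eq, staticRun_succ, swpK]
      simp only [inv_pow, pow_succ', mul_assoc]
      rw [mul_inv_cancel_left]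

/-- The law of the static product of `t` shuffles. -/
noncomputable def staticLaw (t : ℕ) : Equiv.Perm (Fin (2 * m)) → ℝ :=
  pushLaw (staticRun m t)

lemma staticLaw_nonneg (t : ℕ) (g : Equiv.Perm (Fin (2 * m))) : 0 ≤ staticLaw m t g :=
  pushLaw_nonneg _ _

lemma sum_staticLaw (t : ℕ) : ∑ g, staticLaw m t g = 1 := sum_pushLaw _

/-- The law of `t` shuffles is a translate of the static law. -/
lemma law_eq_staticLaw (t : ℕ) (g : Equiv.Perm (Fin (2 * m))) :
    law m t g = staticLaw m t (((rot m) ^ t)⁻¹ * g) := by
  unfold law staticLaw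
  rw [← pushLaw_mul_left]
  congr 1
  funext cs
  exact runPerm_eq_static m t cs

lemma tvFromUniform_eq_static (t : ℕ) : tvFromUniform m t = tv (staticLaw m t) := by
  rw [tvFromUniform_eq, ← tv_translate (staticLaw m t) ((rot m) ^ t)]
  congr 1
  funext g
  exact law_eq_staticLaw m t g

lemma chi2Shuffle_eq_static (t : ℕ) : chi2Shuffle m t = chi2 (staticLaw m t) := by
  unfold chi2Shuffle
  rw [← chi2_translate (staticLaw m t) ((rot m) ^ t)]
  congr 1
  funext g
  exact law_eq_staticLaw m t g

/-- The law of one conjugated swap layer. -/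
noncomputable def layerLaw (k : ℕ) : Equiv.Perm (Fin (2 * m)) → ℝ := pushLaw (swpK m k)

/-- The static law after one more shuffle: convolve on the left with the law of the new layer. -/
lemma staticLaw_succ (t : ℕ) : staticLaw m (t + 1) = conv (layerLaw m t) (staticLaw m t) := by
  funext g
  unfold staticLaw layerLaw
  rw [← pushLaw_mul]
  have h := pushLaw_comp_equiv (Fin.snocEquiv (fun _ : Fin (t + 1) => Fin m → Bool))
    (staticRun m (t + 1)) g
  rw [← h]
  congr 1
  funext p
  rw [staticRun_succ]
  simp [Fin.snocEquiv]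

lemma staticLaw_zero (g : Equiv.Perm (Fin (2 * m))) :
    staticLaw m 0 g = if g = 1 then 1 else 0 := by
  unfold staticLaw
  rw [pushLaw_eq_sum]
  have h1 : Fintype.card (Fin 0 → Fin m → Bool) = 1 := by simp
  have h2 : ∀ ω : Fin 0 → Fin m → Bool,
      (if staticRun m 0 ω = g then (1 : ℝ) else 0) = if g = 1 then 1 else 0 := by
    intro ω
    rw [staticRun_zero]
    by_cases hg : g = 1
    · rw [if_pos hg, if_pos hg.symm]
    · rw [if_neg hg, if_neg (Ne.symm hg)]
  rw [Finset.sum_congr rfl (fun ω _ => h2 ω), Finset.sum_const, Finset.card_univ, h1]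
  simp

end Step

/-! ### The swap layers form an elementary abelian 2-group -/

section Layer

variable (m : ℕ)

/-- The lower representative `u` of the pair `{u, u + m}`. -/
def lowRep (u : Fin m) : Fin (2 * m) := ⟨u.val, by have hu := u.isLt; omega⟩

lemma lowIdx_lowRep (u : Fin m) : lowIdx m (lowRep m u) = u := by
  apply Fin.ext
  show u.val % m = u.val
  exact Nat.mod_eq_of_lt u.isLt

/-- Two positions in the same pair are equal or partners. -/
lemma eq_or_eq_flipTop_of_lowIdx_eq {x y : Fin (2 * m)} (h : lowIdx m y = lowIdx m x) :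
    y = x ∨ y = flipTop m x := by
  have hx := x.isLt
  have hy := y.isLt
  have h1 : y.val % m = x.val % m := congrArg Fin.val h
  have modx : x.val % m = if m ≤ x.val then x.val - m else x.val := by
    split_ifs with hle
    · rw [Nat.mod_eq_sub_mod hle, Nat.mod_eq_of_lt (by omega)]
    · exact Nat.mod_eq_of_lt (by omega)
  have mody : y.val % m = if m ≤ y.val then y.val - m else y.val := by
    split_ifs with hle
    · rw [Nat.mod_eq_sub_mod hle, Nat.mod_eq_of_lt (by omega)]
    · exact Nat.mod_eq_of_lt (by omega)
  rw [modx, mody] at h1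
  by_cases hxle : m ≤ x.val <;> by_cases hyle : m ≤ y.val
  · left; apply Fin.ext; rw [if_pos hxle, if_pos hyle] at h1; omega
  · right; apply Fin.ext; rw [flipTop_val, if_pos hxle]; rw [if_pos hxle, if_neg hyle] at h1; omega
  · right; apply Fin.ext; rw [flipTop_val, if_neg hxle]; rw [if_neg hxle, if_pos hyle] at h1; omega
  · left; apply Fin.ext; rw [if_neg hxle, if_neg hyle] at h1; omega

lemma swp_lowRep (c : Fin m → Bool) (u : Fin m) :
    swp m c (lowRep m u) = if c u then flipTop m (lowRep m u) else lowRep m u := by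
  rw [swp_apply]
  unfold swpFun
  rw [lowIdx_lowRep]

lemma swp_injective : Function.Injective (swp m) := by
  intro c c' h
  funext u
  have h1 := congrArg (fun g : Equiv.Perm (Fin (2 * m)) => g (lowRep m u)) h
  simp only [swp_lowRep] at h1
  have hne := flipTop_ne m (lowRep m u)
  cases hc : c u <;> cases hc' : c' u
  · rfl
  · rw [hc, hc'] at h1
    simp only [Bool.false_eq_true, if_false, if_true] at h1
    exact absurd h1.symm hne
  · rw [hc, hc'] at h1
    simp only [Bool.false_eq_true, if_false, if_true] at h1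
    exact absurd h1 hne
  · rfl

/-- A permutation preserving every pair is a swap layer. -/
lemma exists_swp_of_lowIdx (g : Equiv.Perm (Fin (2 * m)))
    (hg : ∀ x, lowIdx m (g x) = lowIdx m x) : ∃ c : Fin m → Bool, g = swp m c := by
  classical
  -- `g` fixes `x` iff it fixes the partner of `x`
  have hpair : ∀ x, g x = x ↔ g (flipTop m x) = flipTop m x := by
    intro x
    have hx := eq_or_eq_flipTop_of_lowIdx_eq m (hg x)
    have hp := eq_or_eq_flipTop_of_lowIdx_eq m (hg (flipTop m x))
    rw [flipTop_flipTop] at hp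
    constructor
    · intro h
      rcases hp with hp | hp
      · exact hp
      · exfalso
        have : g (flipTop m x) = g x := by rw [hp, h]
        exact flipTop_ne m x (g.injective this)
    · intro h
      rcases hx with hx | hx
      · exact hx
      · exfalso
        have : g x = g (flipTop m x) := by rw [hx, h]
        exact flipTop_ne m x (g.injective this).symm
  refine ⟨fun u => decide (g (lowRep m u) ≠ lowRep m u), ?_⟩
  apply Equiv.ext
  intro x
  rw [swp_apply]
  unfold swpFun
  beta_reduce
  -- the representative of the pair of `x` is `x` or its partner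
  have hrep : lowRep m (lowIdx m x) = x ∨ lowRep m (lowIdx m x) = flipTop m x :=
    eq_or_eq_flipTop_of_lowIdx_eq m (lowIdx_lowRep m (lowIdx m x))
  have hmoved : (g (lowRep m (lowIdx m x)) ≠ lowRep m (lowIdx m x)) ↔ g x ≠ x := by
    rcases hrep with h | h
    · rw [h]
    · rw [h]; exact not_congr (hpair x).symm
  by_cases hfix : g x = x
  · have : decide (g (lowRep m (lowIdx m x)) ≠ lowRep m (lowIdx m x)) = false := by
      rw [decide_eq_false_iff_not, hmoved]; exact not_not.mpr hfix
    rw [this]; simpa using hfix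
  · have : decide (g (lowRep m (lowIdx m x)) ≠ lowRep m (lowIdx m x)) = true := by
      rw [decide_eq_true_iff, hmoved]; exact hfix
    rw [this]
    rcases eq_or_eq_flipTop_of_lowIdx_eq m (hg x) with h | h
    · exact absurd h hfix
    · simpa using h

/-- The swap layers multiply by `xor` of the coins. -/
lemma swp_mul (c c' : Fin m → Bool) : swp m c * swp m c' = swp m (fun u => xor (c u) (c' u)) := by
  apply Equiv.ext
  intro x
  show swpFun m c (swpFun m c' x) = swpFun m (fun u => xor (c u) (c' u)) x
  have h1 := lowIdx_swpFun m c' x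
  unfold swpFun at h1 ⊢
  cases hc : c (lowIdx m x) <;> cases hc' : c' (lowIdx m x)
  · simp [hc, hc']
  · simp only [hc', if_true] at h1 ⊢
    simp [h1, hc]
  · simp [hc, hc']
  · simp only [hc', if_true] at h1 ⊢
    simp [h1, hc, flipTop_flipTop]

/-- The set of values of the `k`-th conjugated swap layer: the permutations `g` such that
`rot ^ k ∘ g ∘ rot ^ (-k)` preserves every pair `{u, u + m}`. -/
noncomputable def EK (k : ℕ) : Finset (Equiv.Perm (Fin (2 * m))) :=
  haveI : DecidablePred (fun g : Equiv.Perm (Fin (2 * m)) =>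
    ∀ x, lowIdx m (((rot m) ^ k) (g x)) = lowIdx m (((rot m) ^ k) x)) := Classical.decPred _
  univ.filter (fun g => ∀ x, lowIdx m (((rot m) ^ k) (g x)) = lowIdx m (((rot m) ^ k) x))

lemma mem_EK (k : ℕ) (g : Equiv.Perm (Fin (2 * m))) :
    g ∈ EK m k ↔ ∀ x, lowIdx m (((rot m) ^ k) (g x)) = lowIdx m (((rot m) ^ k) x) := by
  unfold EK
  simp

lemma one_mem_EK (k : ℕ) : (1 : Equiv.Perm (Fin (2 * m))) ∈ EK m k := by
  rw [mem_EK]; intro x; rfl

lemma mul_mem_EK (k : ℕ) {g h : Equiv.Perm (Fin (2 * m))} (hg : g ∈ EK m k) (hh : h ∈ EK m k) :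
    g * h ∈ EK m k := by
  rw [mem_EK] at *
  intro x
  rw [Equiv.Perm.mul_apply, hg, hh]

lemma inv_mem_EK (k : ℕ) {g : Equiv.Perm (Fin (2 * m))} (hg : g ∈ EK m k) : g⁻¹ ∈ EK m k := by
  rw [mem_EK] at *
  intro x
  have := hg (g⁻¹ x)
  rw [show g (g⁻¹ x) = x from g.apply_symm_apply x] at this
  exact this.symm

lemma swpK_apply (k : ℕ) (c : Fin m → Bool) (x : Fin (2 * m)) :
    ((rot m) ^ k) (swpK m k c x) = swp m c (((rot m) ^ k) x) := by
  unfold swpK
  rw [inv_pow]
  exact ((rot m) ^ k).apply_symm_apply _

lemma swpK_mem_EK (k : ℕ) (c : Fin m → Bool) : swpK m k c ∈ EK m k := by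
  rw [mem_EK]
  intro x
  rw [swpK_apply, swp_apply, lowIdx_swpFun]

lemma swpK_injective (k : ℕ) : Function.Injective (swpK m k) := by
  intro c c' h
  apply swp_injective m
  unfold swpK at h
  exact mul_left_cancel (mul_right_cancel h)

lemma exists_swpK_of_mem_EK (k : ℕ) {g : Equiv.Perm (Fin (2 * m))} (hg : g ∈ EK m k) :
    ∃ c : Fin m → Bool, g = swpK m k c := by
  rw [mem_EK] at hg
  obtain ⟨c, hc⟩ := exists_swp_of_lowIdx m ((rot m) ^ k * g * ((rot m) ^ k)⁻¹) (by
    intro x
    simp only [Equiv.Perm.mul_apply]
    rw [hg, show ((rot m) ^ k) (((rot m) ^ k)⁻¹ x) = x from ((rot m) ^ k).apply_symm_apply x])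
  refine ⟨c, ?_⟩
  unfold swpK
  rw [← hc, inv_pow]
  group

lemma image_swpK (k : ℕ) : univ.image (swpK m k) = EK m k := by
  ext g
  constructor
  · intro h
    obtain ⟨c, -, rfl⟩ := Finset.mem_image.mp h
    exact swpK_mem_EK m k c
  · intro h
    obtain ⟨c, rfl⟩ := exists_swpK_of_mem_EK m k h
    exact Finset.mem_image_of_mem _ (Finset.mem_univ _)

lemma card_EK (k : ℕ) : (EK m k).card = 2 ^ m := by
  rw [← image_swpK, Finset.card_image_of_injective _ (swpK_injective m k), Finset.card_univ]
  simp

/-- Elements of a layer are involutions. -/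
lemma mul_self_of_mem_EK (k : ℕ) {g : Equiv.Perm (Fin (2 * m))} (hg : g ∈ EK m k) : g * g = 1 := by
  obtain ⟨c, rfl⟩ := exists_swpK_of_mem_EK m k hg
  unfold swpK
  have h := swp_mul_self m c
  calc (rot m)⁻¹ ^ k * swp m c * rot m ^ k * ((rot m)⁻¹ ^ k * swp m c * rot m ^ k)
      = (rot m)⁻¹ ^ k * (swp m c * swp m c) * rot m ^ k := by rw [inv_pow]; group
    _ = 1 := by rw [h, inv_pow]; group

/-- Elements of a layer commute. -/
lemma mul_comm_of_mem_EK (k : ℕ) {g h : Equiv.Perm (Fin (2 * m))} (hg : g ∈ EK m k)
    (hh : h ∈ EK m k) : g * h = h * g := by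
  obtain ⟨c, rfl⟩ := exists_swpK_of_mem_EK m k hg
  obtain ⟨c', rfl⟩ := exists_swpK_of_mem_EK m k hh
  unfold swpK
  have h1 : swp m c * swp m c' = swp m c' * swp m c := by
    rw [swp_mul, swp_mul]
    congr 1
    funext u
    exact Bool.xor_comm _ _
  calc (rot m)⁻¹ ^ k * swp m c * rot m ^ k * ((rot m)⁻¹ ^ k * swp m c' * rot m ^ k)
      = (rot m)⁻¹ ^ k * (swp m c * swp m c') * rot m ^ k := by rw [inv_pow]; group
    _ = (rot m)⁻¹ ^ k * (swp m c' * swp m c) * rot m ^ k := by rw [h1]
    _ = _ := by rw [inv_pow]; group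

/-- The uniform probability vector on a finite set. -/
noncomputable def unifOn {G : Type*} [DecidableEq G] (S : Finset G) (g : G) : ℝ :=
  if g ∈ S then 1 / (S.card : ℝ) else 0

/-- The push-forward under an injective map is uniform on the image. -/
lemma pushLaw_of_injective {Ω G : Type*} [Fintype Ω] [DecidableEq G] (X : Ω → G)
    (hX : Function.Injective X) (g : G) : pushLaw X g = unifOn (univ.image X) g := by
  classical
  unfold pushLaw unifOn
  rw [Finset.card_image_of_injective _ hX, Finset.card_univ]
  by_cases hg : g ∈ univ.image X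
  · rw [if_pos hg]
    obtain ⟨ω, -, rfl⟩ := Finset.mem_image.mp hg
    have : univ.filter (fun ω' => X ω' = X ω) = {ω} := by
      ext ω'
      simp only [Finset.mem_filter, Finset.mem_univ, true_and, Finset.mem_singleton]
      exact ⟨fun h => hX h, fun h => by rw [h]⟩
    rw [this, Finset.card_singleton, Nat.cast_one]
  · rw [if_neg hg]
    have : univ.filter (fun ω' => X ω' = g) = ∅ := by
      apply Finset.filter_false_of_mem
      intro ω' _ h
      exact hg (h ▸ Finset.mem_image_of_mem _ (Finset.mem_univ _))
    rw [this, Finset.card_empty, Nat.cast_zero, zero_div]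

/-- The law of the `k`-th layer is uniform on `EK m k`. -/
lemma layerLaw_eq (k : ℕ) : layerLaw m k = unifOn (EK m k) := by
  funext g
  unfold layerLaw
  rw [pushLaw_of_injective _ (swpK_injective m k), image_swpK]

/-- The static law, one more shuffle, in terms of the uniform law on the layer group. -/
lemma staticLaw_succ' (t : ℕ) :
    staticLaw m (t + 1) = conv (unifOn (EK m t)) (staticLaw m t) := by
  rw [staticLaw_succ, layerLaw_eq]

end Layer

end Crest.Agent.S0222R
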