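/-
Row 155 (S0222), interface module (helper64): bit coordinates for `m = 2 ^ d`.

Positions are `Fin (2 * 2 ^ d)`, i.e. numbers below `2 ^ (d + 1)`; `bitAt x j` is bit `j` of `x`
(`j : Fin (d + 1)`, cyclic arithmetic).  The permutation `rot` rotates the bits, `rot ^ (d+1) = 1`,
and the `k`-th layer group `EK (2 ^ d) k` is the group of all permutations that change only bit
`d - k % (d + 1)` of every position: the swaps along one direction of the hypercube.
-/
import Crest.Agent.S0222.Static

set_option autoImplicit false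
set_option linter.unusedSectionVars false

namespace Crest.Agent.S0222R

open Crest.ProbabilityR.Shuffle Crest.Agent.S0223
open Finset
open Fin.NatCast

section Bits

variable (d : ℕ)

/-- Bit `j` of the position `x`. -/
def bitAt (x : Fin (2 * 2 ^ d)) (j : Fin (d + 1)) : Bool := x.val.testBit j.val

lemma pos_lt (x : Fin (2 * 2 ^ d)) : x.val < 2 ^ (d + 1) := by
  have hx := x.isLt
  rw [pow_succ]; omega

lemma testBit_of_gt (x : Fin (2 * 2 ^ d)) {j : ℕ} (hj : d < j) : x.val.testBit j = false := by
  apply Nat.testBit_lt_two_pow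
  calc x.val < 2 ^ (d + 1) := pos_lt d x
    _ ≤ 2 ^ j := Nat.pow_le_pow_right (by norm_num) hj

/-- Positions are determined by their bits. -/
lemma ext_bitAt {x y : Fin (2 * 2 ^ d)} (h : ∀ j, bitAt d x j = bitAt d y j) : x = y := by
  apply Fin.ext
  apply Nat.eq_of_testBit_eq
  intro i
  by_cases hi : i ≤ d
  · exact h ⟨i, by omega⟩
  · rw [testBit_of_gt d x (by omega), testBit_of_gt d y (by omega)]

lemma testBit_top (x : Fin (2 * 2 ^ d)) : x.val.testBit d = decide (2 ^ d ≤ x.val) := by
  rw [Nat.testBit_eq_decide_div_mod_eq]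
  have hx := x.isLt
  have hpos : 0 < 2 ^ d := by positivity
  by_cases hle : 2 ^ d ≤ x.val
  · have : x.val / 2 ^ d = 1 := by
      apply Nat.div_eq_of_lt_le
      · omega
      · omega
    simp [this, hle]
  · have : x.val / 2 ^ d = 0 := Nat.div_eq_of_lt (by omega)
    simp [this, hle]

/-- The rotation moves bit `j - 1` to bit `j` (cyclically). -/
lemma rot_bitAt (x : Fin (2 * 2 ^ d)) (j : Fin (d + 1)) :
    bitAt d (rot (2 ^ d) x) j = bitAt d x (j - 1) := by
  unfold bitAt
  rw [rot_val, Fin.coe_sub_one]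
  have hx := x.isLt
  by_cases hj : j = 0
  · rw [if_pos hj, hj]
    show (2 * (x.val % 2 ^ d) + (if 2 ^ d ≤ x.val then 1 else 0)).testBit 0 = _
    rw [Nat.testBit_zero, testBit_top]
    by_cases hle : 2 ^ d ≤ x.val
    · simp [hle]
    · simp [hle]
  · rw [if_neg hj]
    have hj0 : j.val ≠ 0 := fun h => hj (Fin.ext h)
    obtain ⟨i, hi⟩ : ∃ i, j.val = i + 1 := ⟨j.val - 1, by omega⟩
    rw [hi, Nat.testBit_add_one, Nat.add_sub_cancel]
    have hdiv : (2 * (x.val % 2 ^ d) + (if 2 ^ d ≤ x.val then 1 else 0)) / 2 = x.val % 2 ^ d := by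
      split_ifs <;> omega
    rw [hdiv, Nat.testBit_mod_two_pow]
    have hid : i < d := by have := j.isLt; omega
    simp [hid]

lemma rot_pow_bitAt (k : ℕ) (x : Fin (2 * 2 ^ d)) (j : Fin (d + 1)) :
    bitAt d (((rot (2 ^ d)) ^ k) x) j = bitAt d x (j - (k : Fin (d + 1))) := by
  induction k generalizing j with
  | zero => simp
  | succ k ih =>
      rw [pow_succ', Equiv.Perm.mul_apply, rot_bitAt, ih]
      congr 1
      push_cast
      abel

/-- The rotation has order dividing `d + 1`. -/
lemma rot_pow_period : (rot (2 ^ d)) ^ (d + 1) = 1 := by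
  apply Equiv.ext
  intro x
  apply ext_bitAt
  intro j
  rw [rot_pow_bitAt, Fin.natCast_self, sub_zero]
  rfl

lemma rot_pow_mul_period (j : ℕ) : (rot (2 ^ d)) ^ (j * (d + 1)) = 1 := by
  rw [Nat.mul_comm j (d + 1), pow_mul, rot_pow_period, one_pow]

/-- Same pair `{u, u + 2^d}` iff all bits except the top one agree. -/
lemma lowIdx_eq_iff (y z : Fin (2 * 2 ^ d)) :
    lowIdx (2 ^ d) y = lowIdx (2 ^ d) z ↔
      ∀ j : Fin (d + 1), j ≠ Fin.last d → bitAt d y j = bitAt d z j := by
  constructor
  · intro h j hj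
    have h1 : y.val % 2 ^ d = z.val % 2 ^ d := congrArg Fin.val h
    have hjd : j.val < d := by
      have := j.isLt
      have : j.val ≠ d := fun h' => hj (Fin.ext (by rw [h', Fin.val_last]))
      omega
    have e1 := Nat.testBit_mod_two_pow y.val d j.val
    have e2 := Nat.testBit_mod_two_pow z.val d j.val
    simp only [hjd, decide_true, Bool.true_and] at e1 e2
    unfold bitAt
    rw [← e1, ← e2, h1]
  · intro h
    apply Fin.ext
    show y.val % 2 ^ d = z.val % 2 ^ d
    apply Nat.eq_of_testBit_eq
    intro i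
    rw [Nat.testBit_mod_two_pow, Nat.testBit_mod_two_pow]
    by_cases hi : i < d
    · have := h ⟨i, by omega⟩ (by
        intro h'
        have := congrArg Fin.val h'
        rw [Fin.val_last] at this
        simp at this
        omega)
      unfold bitAt at this
      simp only at this
      rw [this]
    · simp [hi]

/-- The direction (bit index) of the `k`-th layer. -/
def dirAt (k : ℕ) : Fin (d + 1) := Fin.last d - (k : Fin (d + 1))

lemma dirAt_val (k : ℕ) : (dirAt d k).val = d - k % (d + 1) := by
  unfold dirAt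
  rw [Fin.sub_def]
  simp only [Fin.val_last, Fin.val_natCast]
  have hr : k % (d + 1) < d + 1 := Nat.mod_lt _ (by omega)
  have : d + 1 - k % (d + 1) + d = (d - k % (d + 1)) + (d + 1) := by omega
  rw [this, Nat.add_mod_right]
  exact Nat.mod_eq_of_lt (by omega)

lemma dirAt_add_period (k : ℕ) : dirAt d (k + (d + 1)) = dirAt d k := by
  unfold dirAt
  have h : ((k + (d + 1) : ℕ) : Fin (d + 1)) = (k : Fin (d + 1)) := by
    rw [Nat.cast_add, Fin.natCast_self, add_zero]
  rw [h]

/-- The `k`-th layer group consists of the permutations that change only bit `dirAt d k`. -/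
lemma mem_EK_iff_bitAt (k : ℕ) (g : Equiv.Perm (Fin (2 * 2 ^ d))) :
    g ∈ EK (2 ^ d) k ↔ ∀ x, ∀ j : Fin (d + 1), j ≠ dirAt d k → bitAt d (g x) j = bitAt d x j := by
  rw [mem_EK]
  constructor
  · intro h x j hj
    have h1 := (lowIdx_eq_iff d _ _).mp (h x) (j + (k : Fin (d + 1))) (by
      intro h'
      apply hj
      unfold dirAt
      rw [← h']
      abel)
    rw [rot_pow_bitAt, rot_pow_bitAt, add_sub_cancel_right] at h1
    exact h1
  · intro h x
    rw [lowIdx_eq_iff]
    intro j hj
    rw [rot_pow_bitAt, rot_pow_bitAt]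
    apply h
    intro h'
    apply hj
    unfold dirAt at h'
    have := congrArg (fun z => z + (k : Fin (d + 1))) h'
    simpa using this

/-- Version with natural-number bit indices. -/
lemma mem_EK_iff_testBit (k : ℕ) (g : Equiv.Perm (Fin (2 * 2 ^ d))) :
    g ∈ EK (2 ^ d) k ↔
      ∀ x, ∀ j : ℕ, j ≠ d - k % (d + 1) → (g x).val.testBit j = x.val.testBit j := by
  rw [mem_EK_iff_bitAt]
  constructor
  · intro h x j hj
    by_cases hjd : j ≤ d
    · have := h x ⟨j, by omega⟩ (by
        intro h'
        have := congrArg Fin.val h'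
        rw [dirAt_val] at this
        exact hj this)
      exact this
    · rw [testBit_of_gt d _ (by omega), testBit_of_gt d _ (by omega)]
  · intro h x j hj
    apply h x j.val
    intro h'
    apply hj
    apply Fin.ext
    rw [dirAt_val]
    exact h'

lemma EK_add_period (k : ℕ) : EK (2 ^ d) (k + (d + 1)) = EK (2 ^ d) k := by
  ext g
  rw [mem_EK_iff_bitAt, mem_EK_iff_bitAt, dirAt_add_period]

lemma EK_mod (k : ℕ) : EK (2 ^ d) k = EK (2 ^ d) (k % (d + 1)) := by
  ext g
  rw [mem_EK_iff_testBit, mem_EK_iff_testBit, Nat.mod_mod]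

/-- After a whole number of sweeps the law of the shuffle IS the static law. -/
lemma law_sweeps_eq_static (j : ℕ) : law (2 ^ d) (j * (d + 1)) = staticLaw (2 ^ d) (j * (d + 1)) := by
  funext g
  rw [law_eq_staticLaw, rot_pow_mul_period, inv_one, one_mul]

/-- The law of one sweep (`d + 1` shuffles). -/
noncomputable def sweepLaw : Equiv.Perm (Fin (2 * 2 ^ d)) → ℝ := law (2 ^ d) (d + 1)

/-- `j + 1` sweeps: convolve the sweep law (on the left) with the law of `j` sweeps. -/
lemma law_succ_sweep (j : ℕ) :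
    law (2 ^ d) ((j + 1) * (d + 1)) = conv (sweepLaw d) (law (2 ^ d) (j * (d + 1))) := by
  have : (j + 1) * (d + 1) = j * (d + 1) + (d + 1) := by ring
  rw [this, law_add]
  rfl

end Bits

end Crest.Agent.S0222R
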