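/-
Row 155 (S0222), interface module (helper64): pointwise (sup-norm / Doeblin) consequences.

* `abs_card_mul_conv_sub_one_le` : `| |G| (μ * ν)(g) - 1 | ≤ √(chi2 μ) √(chi2 ν)` (Cauchy–Schwarz);
* `tv_le_of_pointwise`, `tv_le_of_lower` : total variation from pointwise density bounds;
* shuffle versions and the glue `tendsto_of_lower` for a pointwise lower bound.
-/
import Crest.Agent.S0222.Law

set_option autoImplicit false
set_option linter.unusedSectionVars false

namespace Crest.Agent.S0222R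

open Crest.ProbabilityR.Shuffle Crest.Agent.S0223
open Finset

section Group

variable {G : Type*} [Group G] [Fintype G] [DecidableEq G]

/-- Cauchy–Schwarz: the density of a convolution is within `√(chi2 μ) √(chi2 ν)` of one,
pointwise. -/
lemma abs_card_mul_conv_sub_one_le (μ ν : G → ℝ) (hμ : ∑ g, μ g = 1) (hν : ∑ g, ν g = 1) (g : G) :
    |(Fintype.card G : ℝ) * conv μ ν g - 1| ≤ Real.sqrt (chi2 μ) * Real.sqrt (chi2 ν) := by
  have hN := card_pos_real (G := G)
  set N : ℝ := (Fintype.card G : ℝ) with hNdef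
  set u : ℝ := 1 / N with hu
  have hNu : N * u = 1 := by rw [hu, mul_one_div, div_self hN.ne']
  have hνtr : ∑ h, ν (h⁻¹ * g) = 1 := by
    rw [← hν]
    exact Fintype.sum_equiv ((Equiv.inv G).trans (Equiv.mulRight g)) _ _ fun _ => by simp
  have h1 : conv μ ν g - u = ∑ h, (μ h - u) * (ν (h⁻¹ * g) - u) := by
    have : ∀ h, (μ h - u) * (ν (h⁻¹ * g) - u)
        = μ h * ν (h⁻¹ * g) - u * ν (h⁻¹ * g) - u * μ h + u * u := by
      intro h; ring
    simp only [this]
    rw [Finset.sum_add_distrib, Finset.sum_sub_distrib, Finset.sum_sub_distrib,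
      ← Finset.mul_sum, ← Finset.mul_sum, hνtr, hμ, Finset.sum_const, Finset.card_univ,
      nsmul_eq_mul]
    unfold conv
    have : (Fintype.card G : ℝ) * (u * u) = u := by
      rw [← mul_assoc]; change N * u * u = u; rw [hNu, one_mul]
    rw [this]; ring
  have hsq : ∑ h, (ν (h⁻¹ * g) - u) ^ 2 = ∑ k, (ν k - u) ^ 2 :=
    Fintype.sum_equiv ((Equiv.inv G).trans (Equiv.mulRight g)) _ _ fun _ => by simp
  have hCS := Finset.sum_mul_sq_le_sq_mul_sq (univ : Finset G) (fun h => μ h - u)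
    (fun h => ν (h⁻¹ * g) - u)
  rw [hsq, ← h1] at hCS
  have hA : 0 ≤ ∑ h, (μ h - u) ^ 2 := Finset.sum_nonneg fun _ _ => sq_nonneg _
  have hB : 0 ≤ ∑ k, (ν k - u) ^ 2 := Finset.sum_nonneg fun _ _ => sq_nonneg _
  have e1 : N * conv μ ν g - 1 = N * (conv μ ν g - u) := by rw [mul_sub, hNu]
  rw [e1, abs_mul, abs_of_pos hN]
  have e2 : Real.sqrt (chi2 μ) * Real.sqrt (chi2 ν)
      = N * (Real.sqrt (∑ h, (μ h - u) ^ 2) * Real.sqrt (∑ k, (ν k - u) ^ 2)) := by
    unfold chi2
    rw [Real.sqrt_mul hN.le, Real.sqrt_mul hN.le]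
    have : Real.sqrt N * Real.sqrt N = N := Real.mul_self_sqrt hN.le
    calc Real.sqrt N * Real.sqrt (∑ h, (μ h - u) ^ 2) * (Real.sqrt N * Real.sqrt (∑ k, (ν k - u) ^ 2))
        = (Real.sqrt N * Real.sqrt N) * (Real.sqrt (∑ h, (μ h - u) ^ 2) * Real.sqrt (∑ k, (ν k - u) ^ 2)) := by ring
      _ = _ := by rw [this]
  rw [e2]
  apply mul_le_mul_of_nonneg_left _ hN.le
  rw [← Real.sqrt_mul hA]
  exact Real.abs_le_sqrt hCS

/-- Total variation from a two-sided pointwise density bound. -/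
lemma tv_le_of_pointwise (μ : G → ℝ) (δ : ℝ)
    (h : ∀ g, |(Fintype.card G : ℝ) * μ g - 1| ≤ δ) : tv μ ≤ δ / 2 := by
  have hN := card_pos_real (G := G)
  unfold tv
  have h1 : ∀ g, |μ g - 1 / (Fintype.card G : ℝ)| ≤ δ / (Fintype.card G : ℝ) := by
    intro g
    have : μ g - 1 / (Fintype.card G : ℝ)
        = ((Fintype.card G : ℝ) * μ g - 1) / (Fintype.card G : ℝ) := by
      field_simp
    rw [this, abs_div, abs_of_pos hN]
    exact div_le_div_of_nonneg_right (h g) hN.le
  have h2 : ∑ g, |μ g - 1 / (Fintype.card G : ℝ)| ≤ ∑ _g : G, δ / (Fintype.card G : ℝ) :=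
    Finset.sum_le_sum fun g _ => h1 g
  rw [Finset.sum_const, Finset.card_univ, nsmul_eq_mul, mul_div_cancel₀ _ hN.ne'] at h2
  linarith

/-- Total variation from a pointwise LOWER bound on the density (Doeblin form). -/
lemma tv_le_of_lower (μ : G → ℝ) (hμ : ∑ g, μ g = 1) (δ : ℝ) (hδ : 0 ≤ δ)
    (h : ∀ g, (1 - δ) / (Fintype.card G : ℝ) ≤ μ g) : tv μ ≤ δ := by
  have hN := card_pos_real (G := G)
  unfold tv
  set u : ℝ := 1 / (Fintype.card G : ℝ) with hu
  have hu0 : 0 < u := by rw [hu]; positivity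
  have h1 : ∀ g, |μ g - u| ≤ (μ g - u) + 2 * (δ * u) := by
    intro g
    have hg : (1 - δ) * u ≤ μ g := by
      have := h g
      rw [hu, mul_one_div]; exact this
    rw [abs_le]
    constructor
    · nlinarith
    · nlinarith [mul_nonneg hδ hu0.le]
  have h2 : ∑ g, |μ g - u| ≤ ∑ g, ((μ g - u) + 2 * (δ * u)) :=
    Finset.sum_le_sum fun g _ => h1 g
  have h3 : ∑ g, ((μ g - u) + 2 * (δ * u)) = 2 * δ := by
    rw [Finset.sum_add_distrib, Finset.sum_sub_distrib, hμ, Finset.sum_const, Finset.sum_const,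
      Finset.card_univ, nsmul_eq_mul, nsmul_eq_mul]
    have hNu : (Fintype.card G : ℝ) * u = 1 := by rw [hu, mul_one_div, div_self hN.ne']
    have : (Fintype.card G : ℝ) * (2 * (δ * u)) = 2 * δ * ((Fintype.card G : ℝ) * u) := by ring
    rw [this, hNu]; ring
  rw [h3] at h2
  linarith

end Group

section Shuffle

variable (m : ℕ)

/-- F8: after `s + t` shuffles the density is pointwise within `√chi2(t) √chi2(s)` of one. -/
lemma abs_law_add_sub_one_le (s t : ℕ) (g : Equiv.Perm (Fin (2 * m))) :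
    |((2 * m).factorial : ℝ) * law m (s + t) g - 1|
      ≤ Real.sqrt (chi2Shuffle m t) * Real.sqrt (chi2Shuffle m s) := by
  have h := abs_card_mul_conv_sub_one_le (law m t) (law m s) (sum_law m t) (sum_law m s) g
  rw [Fintype.card_perm, Fintype.card_fin] at h
  rw [law_add]
  exact h

/-- F8, diagonal case: `|N! μ_{2t}(g) - 1| ≤ chi2_t`. -/
lemma abs_law_double_sub_one_le (t : ℕ) (g : Equiv.Perm (Fin (2 * m))) :
    |((2 * m).factorial : ℝ) * law m (t + t) g - 1| ≤ chi2Shuffle m t := by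
  have h := abs_law_add_sub_one_le m t t g
  have h2 : Real.sqrt (chi2Shuffle m t) * Real.sqrt (chi2Shuffle m t) = chi2Shuffle m t :=
    Real.mul_self_sqrt (chi2_nonneg _)
  rwa [h2] at h

/-- `tv` after `2t` shuffles is at most half the chi-square after `t`. -/
lemma tvFromUniform_double_le (t : ℕ) : tvFromUniform m (t + t) ≤ chi2Shuffle m t / 2 := by
  rw [tvFromUniform_eq]
  apply tv_le_of_pointwise
  intro g
  have h := abs_law_double_sub_one_le m t g
  rwa [← Fintype.card_fin (2 * m), ← Fintype.card_perm] at h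

/-- Doeblin form for the shuffle: a pointwise lower bound `(1 - δ)/N!` on the law gives
`tvFromUniform ≤ δ`. -/
lemma tvFromUniform_le_of_lower (t : ℕ) (δ : ℝ) (hδ : 0 ≤ δ)
    (h : ∀ g : Equiv.Perm (Fin (2 * m)), (1 - δ) / ((2 * m).factorial : ℝ) ≤ law m t g) :
    tvFromUniform m t ≤ δ := by
  rw [tvFromUniform_eq]
  apply tv_le_of_lower _ (sum_law m t) δ hδ
  intro g
  rw [Fintype.card_perm, Fintype.card_fin]
  exact h g

end Shuffle

/-- Glue for a pointwise lower bound (lemma (LD)): if for one `j ≤ 1600` the law after `j` sweeps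
is pointwise at least `(1 - δ d)/N!` with `δ → 0`, `δ ≥ 0`, the frozen S0222 statement holds. -/
theorem tendsto_of_lower (j : ℕ) (hj : j ≤ 1600) (δ : ℕ → ℝ)
    (hδ : Filter.Tendsto δ Filter.atTop (nhds 0))
    (h : ∀ᶠ d in Filter.atTop, 0 ≤ δ d ∧ ∀ g : Equiv.Perm (Fin (2 * 2 ^ d)),
      (1 - δ d) / ((2 * 2 ^ d).factorial : ℝ) ≤ law (2 ^ d) (j * (d + 1)) g) :
    Filter.Tendsto (fun d : ℕ => tvFromUniform (2 ^ d) (1600 * (d + 1)))
      Filter.atTop (nhds 0) := by
  refine tendsto_of_sweeps j hj δ hδ ?_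
  filter_upwards [h] with d hd
  exact tvFromUniform_le_of_lower _ _ _ hd.1 hd.2

end Crest.Agent.S0222R
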